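import Vale.Agent.P197.Defs

namespace Vale.Agent.P197

open Equiv

universe u

/-- The free vector space on words. -/
abbrev Wd (Ω : Type) := (Ω → ℕ) →₀ ℂ

section defs

variable {Ω : Type} [Fintype Ω] [DecidableEq Ω]

/-- The column group. -/
def colGroup (col : Ω → ℕ) : Finset (Perm Ω) :=
  Finset.univ.filter (fun c : Perm Ω => ∀ a, col (c a) = col a)

/-- The column antisymmetrizer acting on a representation. -/
noncomputable def kappa {V : Type u} [AddCommGroup V] [Module ℂ V]
    (ρ : Representation ℂ (Perm Ω) V) (col : Ω → ℕ) : V →ₗ[ℂ] V :=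
  ∑ c ∈ colGroup col, ((Perm.sign c : ℤ) : ℂ) • ρ c

/-- On every column, `row` is a bijection onto an initial segment of `ℕ`. -/
structure IsColTab (row col : Ω → ℕ) : Prop where
  inj : ∀ a b, col a = col b → row a = row b → a = b
  down : ∀ a i, i < row a → ∃ b, col b = col a ∧ row b = i

/-- Columns of height two, except exactly one column of height one. -/
structure TwoRow (row col : Ω → ℕ) : Prop where
  tab : IsColTab row col
  lt_two : ∀ a, row a < 2
  single : ∃! z, ∀ b, col b = col z → b = z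

/-- A tableau of staircase shape. -/
structure IsStairTab (m : ℕ) (row col : Ω → ℕ) : Prop where
  lt : ∀ a, row a + col a < m
  inj : ∀ a b, col a = col b → row a = row b → a = b
  surj : ∀ x y, x + y < m → ∃ a, row a = x ∧ col a = y

/-- Barycentric coordinates on a triangle of side `m`. -/
structure Stair (m : ℕ) (i j k : Ω → ℕ) : Prop where
  sum : ∀ a, i a + j a + k a + 1 = m
  inj : ∀ a b, j a = j b → k a = k b → a = b
  surj : ∀ x y, x + y < m → ∃ a, j a = x ∧ k a = y

/-- An equivariant bilinear map on words. -/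
def Equivar {V : Type u} [AddCommGroup V] [Module ℂ V] (ρ : Representation ℂ (Perm Ω) V)
    (B : Wd Ω →ₗ[ℂ] Wd Ω →ₗ[ℂ] V) : Prop :=
  ∀ g x y, B (wordRep Ω g x) (wordRep Ω g y) = ρ g (B x y)

/-- The integral span of the orbit of a vector. -/
def orbitSpan {V : Type u} [AddCommGroup V] [Module ℂ V] (ρ : Representation ℂ (Perm Ω) V)
    (v : V) : Submodule ℤ V :=
  Submodule.span ℤ (Set.range fun g => ρ g v)

/-- The inductive hypothesis. -/
def Hyp {V : Type u} [AddCommGroup V] [Module ℂ V] (ρ : Representation ℂ (Perm Ω) V)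
    (m : ℕ) (i j k : Ω → ℕ) : Prop :=
  ∃ (B : Wd Ω →ₗ[ℂ] Wd Ω →ₗ[ℂ] V) (Γ : Submodule ℤ V), Equivar ρ B ∧ Γ.FG ∧ Γ ≠ ⊥ ∧
    (∀ g, ∀ x ∈ Γ, ρ g x ∈ Γ) ∧
    (∀ r c r' c', IsStairTab m r c → IsStairTab m r' c' →
      B (polytabloid r c) (polytabloid r' c') ∈ Γ) ∧
    (∀ x ∈ Γ, ∃ y ∈ orbitSpan ρ (B (polytabloid i j) (polytabloid i k)), ∃ z ∈ Γ, x = y + 2 • z)

/-- The twist of a representation by the sign character. -/
noncomputable def signTwist {V : Type u} [AddCommGroup V] [Module ℂ V]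
    (ρ : Representation ℂ (Perm Ω) V) : Representation ℂ (Perm Ω) V where
  toFun g := ((Perm.sign g : ℤ) : ℂ) • ρ g
  map_one' := by simp
  map_mul' g h := by
    ext v
    simp [smul_smul, mul_comm]

/-- The two matchings given by `c` and `c'` form the path `x 0, x 1, …, x (2 * n)`, which starts
at the point left single by `c`. -/
structure IsPath (n : ℕ) (c c' : Ω → ℕ) (x : ℕ → Ω) : Prop where
  start : ∀ b, c b = c (x 0) → b = x 0
  odd : ∀ l, l < n → c' (x (2 * l)) = c' (x (2 * l + 1))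
  even : ∀ l, l < n → c (x (2 * l + 1)) = c (x (2 * l + 2))
  inj : ∀ s t, s ≤ 2 * n → t ≤ 2 * n → x s = x t → s = t

end defs

section lemmas

variable {Ω : Type} [Fintype Ω] [DecidableEq Ω] {V : Type u} [AddCommGroup V] [Module ℂ V]

omit [Fintype Ω] [DecidableEq Ω] in
@[simp] theorem wordRep_single (g : Perm Ω) (w : Ω → ℕ) (z : ℂ) :
    wordRep Ω g (Finsupp.single w z) = Finsupp.single (w ∘ ⇑g⁻¹) z := by
  simp [wordRep]

omit [Fintype Ω] [DecidableEq Ω] in
theorem wordRep_apply (g : Perm Ω) (x : Wd Ω) (w : Ω → ℕ) :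
    wordRep Ω g x w = x (w ∘ ⇑g) := by
  induction x using Finsupp.induction_linear with
  | zero => simp
  | add x y hx hy => simp [hx, hy]
  | single v z =>
    rw [wordRep_single]
    classical
    simp only [Finsupp.single_apply]
    congr 1
    apply propext
    constructor
    · rintro rfl
      ext a
      simp
    · rintro rfl
      ext a
      simp

theorem mem_colGroup {col : Ω → ℕ} {c : Perm Ω} : c ∈ colGroup col ↔ ∀ a, col (c a) = col a := by
  simp [colGroup]

theorem one_mem_colGroup (col : Ω → ℕ) : (1 : Perm Ω) ∈ colGroup col := by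
  simp [mem_colGroup]

theorem mul_mem_colGroup {col : Ω → ℕ} {c d : Perm Ω} (hc : c ∈ colGroup col)
    (hd : d ∈ colGroup col) : c * d ∈ colGroup col := by
  rw [mem_colGroup] at *
  intro a
  rw [Perm.mul_apply, hc, hd]

theorem inv_mem_colGroup {col : Ω → ℕ} {c : Perm Ω} (hc : c ∈ colGroup col) :
    c⁻¹ ∈ colGroup col := by
  rw [mem_colGroup] at *
  intro a
  rw [← hc (c⁻¹ a)]
  simp

theorem colGroup_congr {col col' : Ω → ℕ} (h : ∀ a b, col a = col b ↔ col' a = col' b) :
    colGroup col = colGroup col' := by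
  ext c
  simp [mem_colGroup, h]

theorem polytabloid_eq_kappa (row col : Ω → ℕ) :
    polytabloid row col = kappa (wordRep Ω) col (Finsupp.single row 1) := by
  simp [polytabloid, kappa, colGroup, LinearMap.sum_apply]

theorem kappa_apply (ρ : Representation ℂ (Perm Ω) V) (col : Ω → ℕ) (v : V) :
    kappa ρ col v = ∑ c ∈ colGroup col, ((Perm.sign c : ℤ) : ℂ) • ρ c v := by
  simp [kappa, LinearMap.sum_apply]

theorem polytabloid_eq_sum (row col : Ω → ℕ) :
    polytabloid row col =
      ∑ c ∈ colGroup col, ((Perm.sign c : ℤ) : ℂ) • Finsupp.single (row ∘ ⇑c⁻¹) (1 : ℂ) := by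
  rw [polytabloid_eq_kappa, kappa_apply]
  simp only [wordRep_single]

theorem sign_mul_self (c : Perm Ω) : ((Perm.sign c : ℤ) : ℂ) * ((Perm.sign c : ℤ) : ℂ) = 1 := by
  rcases Int.units_eq_one_or (Perm.sign c) with h | h <;> simp [h]

theorem sign_cast_eq (c : Perm Ω) :
    ((Perm.sign c : ℤ) : ℂ) = 1 ∨ ((Perm.sign c : ℤ) : ℂ) = -1 := by
  rcases Int.units_eq_one_or (Perm.sign c) with h | h <;> simp [h]

theorem sign_cast_mul (c d : Perm Ω) : ((Perm.sign (c * d) : ℤ) : ℂ) =
    ((Perm.sign c : ℤ) : ℂ) * ((Perm.sign d : ℤ) : ℂ) := by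
  simp

theorem kappa_rep_of_mem (ρ : Representation ℂ (Perm Ω) V) {col : Ω → ℕ} {d : Perm Ω}
    (hd : d ∈ colGroup col) (v : V) :
    kappa ρ col (ρ d v) = ((Perm.sign d : ℤ) : ℂ) • kappa ρ col v := by
  rw [kappa_apply, kappa_apply, Finset.smul_sum]
  refine Finset.sum_nbij' (fun c => c * d) (fun c => c * d⁻¹) ?_ ?_ ?_ ?_ ?_
  · intro c hc
    exact mul_mem_colGroup hc hd
  · intro c hc
    exact mul_mem_colGroup hc (inv_mem_colGroup hd)
  · intro c _
    group
  · intro c _
    group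
  · intro c _
    rw [smul_smul, sign_cast_mul, mul_comm ((Perm.sign c : ℤ) : ℂ), ← mul_assoc, sign_mul_self,
      one_mul, map_mul, Module.End.mul_apply]

theorem rep_kappa_of_mem (ρ : Representation ℂ (Perm Ω) V) {col : Ω → ℕ} {d : Perm Ω}
    (hd : d ∈ colGroup col) (v : V) :
    ρ d (kappa ρ col v) = ((Perm.sign d : ℤ) : ℂ) • kappa ρ col v := by
  rw [kappa_apply, Finset.smul_sum, map_sum]
  refine Finset.sum_nbij' (fun c => d * c) (fun c => d⁻¹ * c) ?_ ?_ ?_ ?_ ?_
  · intro c hc
    exact mul_mem_colGroup hd hc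
  · intro c hc
    exact mul_mem_colGroup (inv_mem_colGroup hd) hc
  · intro c _
    group
  · intro c _
    group
  · intro c _
    rw [smul_smul, sign_cast_mul, ← mul_assoc, sign_mul_self,
      one_mul, map_mul, Module.End.mul_apply, map_smul]

theorem wordRep_polytabloid_of_mem {row col : Ω → ℕ} {d : Perm Ω} (hd : d ∈ colGroup col) :
    wordRep Ω d (polytabloid row col) = ((Perm.sign d : ℤ) : ℂ) • polytabloid row col := by
  rw [polytabloid_eq_kappa, rep_kappa_of_mem _ hd]

theorem polytabloid_comp_of_mem {row col : Ω → ℕ} {d : Perm Ω} (hd : d ∈ colGroup col) :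
    polytabloid (row ∘ ⇑d) col = ((Perm.sign d : ℤ) : ℂ) • polytabloid row col := by
  have h : Finsupp.single (row ∘ ⇑d) (1 : ℂ) = wordRep Ω d⁻¹ (Finsupp.single row 1) := by simp
  rw [polytabloid_eq_kappa, polytabloid_eq_kappa, h, kappa_rep_of_mem _ (inv_mem_colGroup hd)]
  simp

theorem polytabloid_congr {row col col' : Ω → ℕ} (h : ∀ a b, col a = col b ↔ col' a = col' b) :
    polytabloid row col = polytabloid row col' := by
  rw [polytabloid_eq_sum, polytabloid_eq_sum, colGroup_congr h]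

theorem kappa_kappa (ρ : Representation ℂ (Perm Ω) V) (col : Ω → ℕ) (v : V) :
    kappa ρ col (kappa ρ col v) = ((colGroup col).card : ℂ) • kappa ρ col v := by
  conv_lhs => rw [kappa_apply ρ col (kappa ρ col v)]
  rw [Finset.sum_congr rfl (g := fun _ => kappa ρ col v)]
  · simp [Nat.cast_smul_eq_nsmul]
  · intro c hc
    rw [rep_kappa_of_mem ρ hc, smul_smul, sign_mul_self, one_smul]

theorem card_colGroup_ne_zero (col : Ω → ℕ) : ((colGroup col).card : ℂ) ≠ 0 := by
  have : 0 < (colGroup col).card := Finset.card_pos.2 ⟨1, one_mem_colGroup col⟩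
  exact_mod_cast this.ne'

/-- An equivariant map commutes with `kappa`. -/
theorem map_kappa {W : Type*} [AddCommGroup W] [Module ℂ W] {ρ : Representation ℂ (Perm Ω) V}
    {σ : Representation ℂ (Perm Ω) W} (F : V →ₗ[ℂ] W) (hF : ∀ g x, F (ρ g x) = σ g (F x))
    (col : Ω → ℕ) (v : V) : F (kappa ρ col v) = ∑ c ∈ colGroup col,
      ((Perm.sign c : ℤ) : ℂ) • σ c (F v) := by
  rw [kappa_apply, map_sum]
  simp [hF]

/-- A vector fixed by a transposition inside a column is killed by `kappa`. -/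
theorem kappa_eq_zero_of_swap (ρ : Representation ℂ (Perm Ω) V) {col : Ω → ℕ} {a b : Ω}
    (hab : a ≠ b) (hcol : col a = col b) {v : V} (hv : ρ (swap a b) v = v) :
    kappa ρ col v = 0 := by
  have hs : swap a b ∈ colGroup col := by
    rw [mem_colGroup]
    intro x
    rw [swap_apply_def]
    split_ifs with h1 h2
    · rw [h1, hcol]
    · rw [h2, hcol]
    · rfl
  have h := kappa_rep_of_mem ρ hs v
  rw [hv, Perm.sign_swap hab] at h
  have h2 : (2 : ℂ) • kappa ρ col v = 0 := by
    rw [two_smul]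
    nth_rewrite 1 [h]
    simp
  exact (smul_eq_zero.1 h2).resolve_left two_ne_zero

theorem kappa_single_eq_zero {col w : Ω → ℕ} {a b : Ω} (hab : a ≠ b) (hcol : col a = col b)
    (hw : w a = w b) (z : ℂ) : kappa (wordRep Ω) col (Finsupp.single w z) = 0 := by
  apply kappa_eq_zero_of_swap _ hab hcol
  rw [wordRep_single]
  congr 1
  ext x
  simp only [Function.comp, swap_inv, swap_apply_def]
  split_ifs with h1 h2
  · rw [h1, hw]
  · rw [h2, hw]
  · rfl

theorem kappa_wordRep_apply (col : Ω → ℕ) (x : Wd Ω) (w : Ω → ℕ) :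
    kappa (wordRep Ω) col x w = ∑ c ∈ colGroup col, ((Perm.sign c : ℤ) : ℂ) * x (w ∘ ⇑c) := by
  rw [kappa_apply, Finsupp.finsetSum_apply]
  simp [wordRep_apply]

theorem polytabloid_apply_row {row col : Ω → ℕ}
    (hinj : ∀ a b, col a = col b → row a = row b → a = b) : polytabloid row col row = 1 := by
  classical
  rw [polytabloid_eq_kappa, kappa_wordRep_apply, Finset.sum_eq_single (1 : Perm Ω)]
  · simp
  · intro c hc hne
    rw [Finsupp.single_apply, if_neg, mul_zero]
    intro h
    apply hne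
    ext a
    exact hinj _ _ (mem_colGroup.1 hc a) (congrFun h a).symm
  · intro h
    exact absurd (one_mem_colGroup col) h

theorem polytabloid_ne_zero {row col : Ω → ℕ}
    (hinj : ∀ a b, col a = col b → row a = row b → a = b) : polytabloid row col ≠ 0 := by
  intro h
  have := polytabloid_apply_row hinj
  rw [h] at this
  simp at this

/-- Words in the support of a polytabloid. -/
theorem exists_of_polytabloid_apply_ne_zero {row col w : Ω → ℕ} (h : polytabloid row col w ≠ 0) :
    ∃ c ∈ colGroup col, w = row ∘ ⇑c := by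
  classical
  rw [polytabloid_eq_kappa, kappa_wordRep_apply] at h
  obtain ⟨c, hc, hne⟩ := Finset.exists_ne_zero_of_sum_ne_zero h
  refine ⟨c⁻¹, inv_mem_colGroup hc, ?_⟩
  have : row = w ∘ ⇑c := by
    by_contra hh
    rw [Finsupp.single_apply, if_neg hh, mul_zero] at hne
    exact hne rfl
  rw [this]
  ext a
  simp

theorem signTwist_apply (ρ : Representation ℂ (Perm Ω) V) (g : Perm Ω) (v : V) :
    signTwist ρ g v = ((Perm.sign g : ℤ) : ℂ) • ρ g v := rfl

/-- Extension of a vector fixed by the stabilizer of a word to an equivariant map. -/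
theorem exists_ext (ρ : Representation ℂ (Perm Ω) V) (w₀ : Ω → ℕ) (u : V)
    (hu : ∀ g : Perm Ω, w₀ ∘ ⇑g = w₀ → ρ g u = u) :
    ∃ F : Wd Ω →ₗ[ℂ] V, (∀ g x, F (wordRep Ω g x) = ρ g (F x)) ∧
      F (Finsupp.single w₀ 1) = u ∧
      ∀ w, (¬ ∃ g : Perm Ω, w = w₀ ∘ ⇑g) → F (Finsupp.single w 1) = 0 := by
  classical
  let f : (Ω → ℕ) → V := fun w =>
    if h : ∃ g : Perm Ω, w = w₀ ∘ ⇑g then ρ (h.choose)⁻¹ u else 0
  have hf : ∀ g : Perm Ω, f (w₀ ∘ ⇑g) = ρ g⁻¹ u := by
    intro g
    have h : ∃ g' : Perm Ω, w₀ ∘ ⇑g = w₀ ∘ ⇑g' := ⟨g, rfl⟩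
    have hs := h.choose_spec
    simp only [f, dif_pos h]
    have h1 : ρ (h.choose * g⁻¹) u = u := by
      apply hu
      ext a
      have := congrFun hs (g⁻¹ a)
      simpa using this.symm
    conv_lhs => rw [← h1]
    rw [← Module.End.mul_apply, ← map_mul]
    simp
  refine ⟨Finsupp.linearCombination ℂ f, ?_, ?_, ?_⟩
  · intro g x
    induction x using Finsupp.induction_linear with
    | zero => simp
    | add x y hx hy => simp [hx, hy]
    | single w z =>
      rw [wordRep_single, Finsupp.linearCombination_single, Finsupp.linearCombination_single,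
        map_smul]
      congr 1
      by_cases h : ∃ g' : Perm Ω, w = w₀ ∘ ⇑g'
      · obtain ⟨g', rfl⟩ := h
        have : (w₀ ∘ ⇑g') ∘ ⇑g⁻¹ = w₀ ∘ ⇑(g' * g⁻¹) := rfl
        rw [this, hf, hf, ← Module.End.mul_apply, ← map_mul]
        simp
      · have h' : ¬ ∃ g' : Perm Ω, w ∘ ⇑g⁻¹ = w₀ ∘ ⇑g' := by
          rintro ⟨g', hg'⟩
          apply h
          refine ⟨g' * g, ?_⟩
          ext a
          simpa using congrFun hg' (g a)
        simp only [f, dif_neg h, dif_neg h', map_zero]
  · have := hf 1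
    simpa using this
  · intro w hw
    simp only [Finsupp.linearCombination_single, f, dif_neg hw, smul_zero]

/-- Maschke: an equivariant projection onto an invariant subspace. -/
theorem exists_proj {G : Type*} [Group G] [Finite G] (ρ : Representation ℂ G V)
    (S : Submodule ℂ V) (hS : ∀ g, ∀ x ∈ S, ρ g x ∈ S) :
    ∃ pr : V →ₗ[ℂ] V, (∀ g x, pr (ρ g x) = ρ g (pr x)) ∧ (∀ x, pr x ∈ S) ∧
      ∀ x ∈ S, pr x = x := by
  classical
  have _ : Fintype G := Fintype.ofFinite G
  obtain ⟨Q, hQ⟩ := S.exists_isCompl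
  let p : V →ₗ[ℂ] V := S.subtype ∘ₗ S.projectionOnto Q hQ
  have hp1 : ∀ x, p x ∈ S := fun x => (S.projectionOnto Q hQ x).2
  have hp2 : ∀ x ∈ S, p x = x := fun x hx => by
    have := Submodule.projectionOnto_apply_left hQ ⟨x, hx⟩
    exact congrArg Subtype.val this
  have hc : (Fintype.card G : ℂ) ≠ 0 := by exact_mod_cast Fintype.card_ne_zero
  refine ⟨(Fintype.card G : ℂ)⁻¹ • ∑ h : G, ρ h ∘ₗ p ∘ₗ ρ h⁻¹, ?_, ?_, ?_⟩
  · intro g x
    simp only [LinearMap.smul_apply, LinearMap.sum_apply, LinearMap.comp_apply, map_smul, map_sum]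
    congr 1
    refine (Fintype.sum_equiv (Equiv.mulLeft g) _ _ ?_).symm
    intro h
    simp only [Equiv.coe_mulLeft, mul_inv_rev, map_mul, Module.End.mul_apply,
      Representation.inv_self_apply]
  · intro x
    simp only [LinearMap.smul_apply, LinearMap.sum_apply, LinearMap.comp_apply]
    exact S.smul_mem _ (S.sum_mem fun h _ => hS _ _ (hp1 _))
  · intro x hx
    simp only [LinearMap.smul_apply, LinearMap.sum_apply, LinearMap.comp_apply]
    rw [Finset.sum_congr rfl (g := fun _ => x)]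
    · rw [Finset.sum_const, Finset.card_univ, ← Nat.cast_smul_eq_nsmul ℂ, smul_smul,
        inv_mul_cancel₀ hc, one_smul]
    · intro h _
      rw [hp2 _ (hS _ _ hx)]
      simp

end lemmas

end Vale.Agent.P197
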