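import Vale.Agent.P197.James

namespace Vale.Agent.P197

open Equiv

universe u

/-- Symmetry of the dimension of spaces of intertwining maps. -/
theorem finrank_intertwining_comm {G : Type} [Group G] [Fintype G] {V W : Type*} [AddCommGroup V]
    [Module ℂ V] [FiniteDimensional ℂ V] [AddCommGroup W] [Module ℂ W] [FiniteDimensional ℂ W]
    (ρ : Representation ℂ G V) (σ : Representation ℂ G W) :
    Module.finrank ℂ (Representation.IntertwiningMap ρ σ) =
      Module.finrank ℂ (Representation.IntertwiningMap σ ρ) := by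
  have hc : (Nat.card G : ℂ) ≠ 0 := by exact_mod_cast Nat.card_pos.ne'
  let _ : Invertible (Nat.card G : ℂ) := invertibleOfNonzero hc
  have h1 := Representation.card_inv_mul_sum_char_mul_char_eq_finrank ρ σ
  have h2 := Representation.card_inv_mul_sum_char_mul_char_eq_finrank σ ρ
  have h3 : ∑ g : G, σ.character g * ρ.character g⁻¹ =
      ∑ g : G, ρ.character g * σ.character g⁻¹ := by
    refine Fintype.sum_equiv (Equiv.inv G) _ _ fun g => ?_
    simp [mul_comm]
  rw [h3, h2] at h1
  exact_mod_cast h1.symm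

theorem finrank_intertwining_pos {G : Type} [Group G] {V W : Type*} [AddCommGroup V]
    [Module ℂ V] [FiniteDimensional ℂ V] [AddCommGroup W] [Module ℂ W] [FiniteDimensional ℂ W]
    (ρ : Representation ℂ G V) (σ : Representation ℂ G W)
    (φ : Representation.IntertwiningMap ρ σ) (h : φ ≠ 0) :
    0 < Module.finrank ℂ (Representation.IntertwiningMap ρ σ) :=
  (Module.finrank_pos_iff_exists_ne_zero (R := ℂ)
    (M := Representation.IntertwiningMap ρ σ)).2 ⟨φ, h⟩

variable {Ω : Type} [Fintype Ω] [DecidableEq Ω]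

/-- The subrepresentation generated by a vector. -/
noncomputable def cyc {G : Type} [Group G] {V : Type u} [AddCommGroup V] [Module ℂ V]
    (ρ : Representation ℂ G V) (v : V) : Subrepresentation ρ where
  toSubmodule := Submodule.span ℂ (Set.range fun g => ρ g v)
  apply_mem_toSubmodule g x hx := by
    refine Submodule.span_induction (fun x hx => ?_) (by simp) (fun x y _ _ hx hy => ?_)
      (fun z x _ hx => ?_) hx
    · obtain ⟨h, rfl⟩ := hx
      rw [← Module.End.mul_apply, ← map_mul]
      exact Submodule.subset_span ⟨_, rfl⟩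
    · rw [map_add]
      exact Submodule.add_mem _ hx hy
    · rw [map_smul]
      exact Submodule.smul_mem _ _ hx

theorem self_mem_cyc {G : Type} [Group G] {V : Type u} [AddCommGroup V] [Module ℂ V]
    (ρ : Representation ℂ G V) (v : V) : v ∈ (cyc ρ v).toSubmodule :=
  Submodule.subset_span ⟨1, by simp⟩

instance finite_cyc {G : Type} [Group G] [Finite G] {V : Type u} [AddCommGroup V] [Module ℂ V]
    (ρ : Representation ℂ G V) (v : V) : FiniteDimensional ℂ (cyc ρ v).toSubmodule :=
  FiniteDimensional.span_of_finite ℂ (Set.finite_range _)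

theorem linear_cyc_eq_zero {G : Type} [Group G] {V : Type u} [AddCommGroup V] [Module ℂ V]
    {W : Type*} [AddCommGroup W] [Module ℂ W] (ρ : Representation ℂ G V)
    (σ : Representation ℂ G W) (v : V) (φ : (cyc ρ v).toSubmodule →ₗ[ℂ] W)
    (hφ : ∀ g x, φ ((cyc ρ v).toRepresentation g x) = σ g (φ x))
    (h : φ ⟨v, self_mem_cyc ρ v⟩ = 0) : φ = 0 := by
  refine LinearMap.ext fun x => ?_
  obtain ⟨x, hx⟩ := x
  change φ ⟨x, hx⟩ = 0
  refine Submodule.span_induction (p := fun x hx => φ ⟨x, hx⟩ = 0) ?_ ?_ ?_ ?_ hx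
  · rintro _ ⟨g, rfl⟩
    have := hφ g ⟨v, self_mem_cyc ρ v⟩
    rw [h, map_zero] at this
    exact this
  · exact map_zero φ
  · intro x y hx hy h1 h2
    have := map_add φ ⟨x, hx⟩ ⟨y, hy⟩
    rw [h1, h2, add_zero] at this
    exact this
  · intro a x hx h1
    have := map_smul φ a ⟨x, hx⟩
    rw [h1, smul_zero] at this
    exact this

theorem kappa_subrep {V : Type u} [AddCommGroup V] [Module ℂ V] {ρ : Representation ℂ (Perm Ω) V}
    (Z : Subrepresentation ρ) (col : Ω → ℕ) (x : Z.toSubmodule) :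
    (kappa Z.toRepresentation col x : V) = kappa ρ col x := by
  rw [kappa_apply ρ]
  exact map_kappa Z.toSubmodule.subtype (fun _ _ => rfl) col x

theorem exists_perm_of_mem_cyc {row col : Ω → ℕ} {x : Wd Ω}
    (hx : x ∈ (cyc (wordRep Ω) (polytabloid row col)).toSubmodule) (w : Ω → ℕ) (hw : x w ≠ 0) :
    ∃ g : Perm Ω, w = row ∘ ⇑g := by
  by_contra hh
  apply hw
  refine Submodule.span_induction (p := fun x _ => x w = 0) ?_ ?_ ?_ ?_ hx
  · rintro _ ⟨g, rfl⟩
    by_contra h1
    rw [wordRep_apply] at h1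
    obtain ⟨c, _, hc⟩ := exists_of_polytabloid_apply_ne_zero h1
    apply hh
    refine ⟨c * g⁻¹, ?_⟩
    ext a
    simpa using congrFun hc (g⁻¹ a)
  · rfl
  · intro x y _ _ h1 h2
    simp [h1, h2]
  · intro a x _ h1
    simp [h1]

theorem linear_eq_zero_of_ne {row col row' col' : Ω → ℕ} (h : IsColTab row col)
    (hs : ∑ a, row' a ≤ ∑ a, row a) (hne : ∀ g : Perm Ω, row ≠ row' ∘ ⇑g)
    (φ : (cyc (wordRep Ω) (polytabloid row col)).toSubmodule →ₗ[ℂ] Wd Ω)
    (hφ : ∀ g x, φ ((cyc (wordRep Ω) (polytabloid row col)).toRepresentation g x) =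
      wordRep Ω g (φ x))
    (hmem : ∀ x, φ x ∈ (cyc (wordRep Ω) (polytabloid row' col')).toSubmodule) : φ = 0 := by
  refine linear_cyc_eq_zero (wordRep Ω) (wordRep Ω) _ φ hφ ?_
  set e : (cyc (wordRep Ω) (polytabloid row col)).toSubmodule := ⟨_, self_mem_cyc _ _⟩ with he
  have h1 : kappa (cyc (wordRep Ω) (polytabloid row col)).toRepresentation col e =
      ((colGroup col).card : ℂ) • e := by
    apply Subtype.ext
    rw [kappa_subrep]
    change kappa _ col (polytabloid row col) = ((colGroup col).card : ℂ) • polytabloid row col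
    rw [polytabloid_eq_kappa, kappa_kappa]
  have h3 := map_kappa φ hφ col e
  rw [h1, map_smul, ← kappa_apply, h.kappa_eq_smul, kappa_wordRep_apply, Finset.sum_eq_zero,
    zero_smul] at h3
  · exact (smul_eq_zero.1 h3).resolve_left (card_colGroup_ne_zero col)
  · intro c _
    by_contra hh
    obtain ⟨g, hg⟩ := exists_perm_of_mem_cyc (hmem e) _ (right_ne_zero_of_mul hh)
    apply hne (g * c⁻¹)
    ext a
    simpa using congrFun hg (c⁻¹ a)
  · intro w hw
    obtain ⟨g, rfl⟩ := exists_perm_of_mem_cyc (hmem e) _ hw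
    rw [sum_comp_perm]
    exact hs

theorem exists_char_factor {V : Type u} [AddCommGroup V] [Module ℂ V]
    (ρ : Representation ℂ (Perm Ω) V) : ∃ φ : (Fintype.card Ω).Partition → ℂ,
      ∀ g, ρ.character g = φ g.partition := by
  classical
  refine ⟨fun P => if h : ∃ g : Perm Ω, g.partition = P then ρ.character h.choose else 0,
    fun g => ?_⟩
  have h : ∃ g' : Perm Ω, g'.partition = g.partition := ⟨g, rfl⟩
  simp only [dif_pos h]
  obtain ⟨c, hc⟩ := isConj_iff.1 (Perm.partition_eq_of_isConj.2 h.choose_spec)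
  rw [← ρ.char_conj h.choose c, hc]

theorem exists_intertwining_ne_zero (W : (Fintype.card Ω).Partition → Type)
    [∀ P, AddCommGroup (W P)] [∀ P, Module ℂ (W P)] [∀ P, FiniteDimensional ℂ (W P)]
    (S : ∀ P, Representation ℂ (Perm Ω) (W P)) (e : ∀ P, W P) (he : ∀ P, e P ≠ 0)
    (hS : ∀ P Q, P ≠ Q →
      (∀ f : W P →ₗ[ℂ] W Q, (∀ g x, f (S P g x) = S Q g (f x)) → f = 0) ∨
      (∀ f : W Q →ₗ[ℂ] W P, (∀ g x, f (S Q g x) = S P g (f x)) → f = 0))
    {V : Type u} [AddCommGroup V] [Module ℂ V] [FiniteDimensional ℂ V]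
    (ρ : Representation ℂ (Perm Ω) V) (v : V) (hv : v ≠ 0) :
    ∃ P, ∃ φ : W P →ₗ[ℂ] V, (∀ g x, φ (S P g x) = ρ g (φ x)) ∧ φ ≠ 0 := by
  classical
  by_contra hcon
  push Not at hcon
  have hc : (Nat.card (Perm Ω) : ℂ) ≠ 0 := by exact_mod_cast Nat.card_pos.ne'
  let _ : Invertible (Nat.card (Perm Ω) : ℂ) := invertibleOfNonzero hc
  choose φ hφ using fun P => exists_char_factor (S P)
  obtain ⟨ψ, hψ⟩ := exists_char_factor ρ
  let ip : (Fintype.card Ω).Partition → ((Fintype.card Ω).Partition → ℂ) →ₗ[ℂ] ℂ := fun P =>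
    { toFun := fun f => (Nat.card (Perm Ω) : ℂ)⁻¹ *
        ∑ g : Perm Ω, f g.partition * (S P).character g⁻¹
      map_add' := fun a b => by simp [add_mul, Finset.sum_add_distrib, mul_add]
      map_smul' := fun a b => by
        simp only [Pi.smul_apply, smul_eq_mul, RingHom.id_apply, mul_assoc, ← Finset.mul_sum]
        ring }
  have hip : ∀ P Q, ip P (φ Q) =
      Module.finrank ℂ (Representation.IntertwiningMap (S P) (S Q)) := by
    intro P Q
    refine Eq.trans ?_ (Representation.card_inv_mul_sum_char_mul_char_eq_finrank (S P) (S Q))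
    simp only [ip, LinearMap.coe_mk, AddHom.coe_mk, hφ Q]
  have hoff : ∀ P Q, P ≠ Q → ip P (φ Q) = 0 := by
    intro P Q hPQ
    rw [hip, Nat.cast_eq_zero]
    rcases hS P Q hPQ with h | h
    · have : Subsingleton (Representation.IntertwiningMap (S P) (S Q)) :=
        subsingleton_of_forall_eq 0 fun f => Representation.IntertwiningMap.ext
          (h f.toLinearMap (f.isIntertwining _ _))
      exact Module.finrank_zero_of_subsingleton
    · have : Subsingleton (Representation.IntertwiningMap (S Q) (S P)) :=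
        subsingleton_of_forall_eq 0 fun f => Representation.IntertwiningMap.ext
          (h f.toLinearMap (f.isIntertwining _ _))
      exact (finrank_intertwining_comm (S P) (S Q)).trans Module.finrank_zero_of_subsingleton
  have hdiag : ∀ P, ip P (φ P) ≠ 0 := by
    intro P
    rw [hip, Nat.cast_ne_zero]
    refine (finrank_intertwining_pos (S P) (S P) (Representation.IntertwiningMap.id _)
      fun h => ?_).ne'
    exact he P (congrArg (fun f : Representation.IntertwiningMap (S P) (S P) => f (e P)) h)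
  have hψ0 : ∀ P, ip P ψ = 0 := by
    intro P
    have h1 : ip P ψ = Module.finrank ℂ (Representation.IntertwiningMap (S P) ρ) := by
      refine Eq.trans ?_ (Representation.card_inv_mul_sum_char_mul_char_eq_finrank (S P) ρ)
      simp only [ip, LinearMap.coe_mk, AddHom.coe_mk, hψ]
    have : Subsingleton (Representation.IntertwiningMap (S P) ρ) :=
      subsingleton_of_forall_eq 0 fun f => Representation.IntertwiningMap.ext
        (hcon P f.toLinearMap (f.isIntertwining _ _))
    rw [h1, Module.finrank_zero_of_subsingleton, Nat.cast_zero]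
  have hcoef : ∀ (c : (Fintype.card Ω).Partition → ℂ) P,
      ip P (∑ Q, c Q • φ Q) = c P * ip P (φ P) := by
    intro c P
    rw [map_sum, Finset.sum_eq_single P]
    · simp
    · intro Q _ hQ
      rw [map_smul, hoff P Q hQ.symm, smul_zero]
    · intro hh
      exact absurd (Finset.mem_univ _) hh
  have hli : LinearIndependent ℂ φ := by
    rw [Fintype.linearIndependent_iff]
    intro c hc0 P
    have := hcoef c P
    rw [hc0, map_zero] at this
    exact (mul_eq_zero.1 this.symm).resolve_right (hdiag P)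
  have hspan := hli.span_eq_top_of_card_eq_finrank' (by simp)
  have hmem : ψ ∈ Submodule.span ℂ (Set.range φ) := by rw [hspan]; trivial
  obtain ⟨c, hc1⟩ := (Submodule.mem_span_range_iff_exists_fun ℂ).1 hmem
  have hc0 : ∀ P, c P = 0 := by
    intro P
    have := hcoef c P
    rw [hc1, hψ0] at this
    exact (mul_eq_zero.1 this.symm).resolve_right (hdiag P)
  have hψz : ψ = 0 := by
    rw [← hc1]
    simp [hc0]
  have h1 := hψ 1
  rw [hψz, Representation.char_one, Pi.zero_apply, Nat.cast_eq_zero] at h1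
  have : Nontrivial V := ⟨v, 0, hv⟩
  exact Module.finrank_pos.ne' h1

/-- Every nonzero representation is hit by one of the Young symmetrizers of a complete family of
column tableaux. -/
theorem exists_kappa_ne_zero (row col : (Fintype.card Ω).Partition → Ω → ℕ)
    (htab : ∀ P, IsColTab (row P) (col P))
    (hne : ∀ P Q (g : Perm Ω), row P = row Q ∘ ⇑g → P = Q)
    {V : Type u} [AddCommGroup V] [Module ℂ V] (ρ : Representation ℂ (Perm Ω) V)
    (v : V) (hv : v ≠ 0) :
    ∃ P u, (∀ g : Perm Ω, row P ∘ ⇑g = row P → ρ g u = u) ∧ kappa ρ (col P) u ≠ 0 := by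
  have hz : ∀ P Q, P ≠ Q → ∑ a, row Q a ≤ ∑ a, row P a →
      ∀ f : (cyc (wordRep Ω) (polytabloid (row P) (col P))).toSubmodule →ₗ[ℂ]
        (cyc (wordRep Ω) (polytabloid (row Q) (col Q))).toSubmodule,
      (∀ g x, f ((cyc (wordRep Ω) (polytabloid (row P) (col P))).toRepresentation g x) =
        (cyc (wordRep Ω) (polytabloid (row Q) (col Q))).toRepresentation g (f x)) → f = 0 := by
    intro P Q hPQ h f hf
    have := linear_eq_zero_of_ne (col' := col Q) (htab P) h (fun g hg => hPQ (hne _ _ g hg))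
      ((cyc (wordRep Ω) (polytabloid (row Q) (col Q))).toSubmodule.subtype ∘ₗ f)
      (fun g x => congrArg Subtype.val (hf g x)) (fun x => (f x).2)
    exact LinearMap.ext fun x => Subtype.ext (LinearMap.congr_fun this x)
  obtain ⟨P, φ, hφ1, hφ⟩ := exists_intertwining_ne_zero
    (fun P => (cyc (wordRep Ω) (polytabloid (row P) (col P))).toSubmodule)
    (fun P => (cyc (wordRep Ω) (polytabloid (row P) (col P))).toRepresentation)
    (fun P => ⟨_, self_mem_cyc _ _⟩)
    (fun P h => polytabloid_ne_zero (htab P).inj (congrArg Subtype.val h))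
    (fun P Q hPQ => (le_total (∑ a, row Q a) (∑ a, row P a)).imp (hz P Q hPQ) (hz Q P hPQ.symm))
    (cyc ρ v).toRepresentation ⟨v, self_mem_cyc ρ v⟩ (fun h => hv (congrArg Subtype.val h))
  obtain ⟨pr, h1, h2, h3⟩ := exists_proj (wordRep Ω)
    (cyc (wordRep Ω) (polytabloid (row P) (col P))).toSubmodule
    (fun g x hx => (cyc (wordRep Ω) (polytabloid (row P) (col P))).apply_mem_toSubmodule g hx)
  let F : Wd Ω →ₗ[ℂ] V := (cyc ρ v).toSubmodule.subtype ∘ₗ φ ∘ₗ pr.codRestrict _ h2
  have hF : ∀ g x, F (wordRep Ω g x) = ρ g (F x) := by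
    intro g x
    have h4 : pr.codRestrict _ h2 (wordRep Ω g x) =
        (cyc (wordRep Ω) (polytabloid (row P) (col P))).toRepresentation g
          (pr.codRestrict _ h2 x) := Subtype.ext (h1 g x)
    change ((φ (pr.codRestrict _ h2 (wordRep Ω g x)) : (cyc ρ v).toSubmodule) : V) = _
    rw [h4, hφ1]
    rfl
  refine ⟨P, F (Finsupp.single (row P) 1), fun g hg => ?_, fun h0 => hφ ?_⟩
  · rw [← hF, wordRep_single]
    congr 2
    conv_lhs => rw [← hg]
    ext a
    simp
  · refine linear_cyc_eq_zero (wordRep Ω) (cyc ρ v).toRepresentation _ φ hφ1 ?_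
    rw [kappa_apply, ← map_kappa F hF, ← polytabloid_eq_kappa] at h0
    have h4 : pr.codRestrict _ h2 (polytabloid (row P) (col P)) =
        ⟨polytabloid (row P) (col P), self_mem_cyc _ _⟩ :=
      Subtype.ext (h3 _ (self_mem_cyc _ _))
    apply Subtype.ext
    rw [← h4]
    exact h0

theorem card_cellsOfRowLens (w : List ℕ) : (YoungDiagram.cellsOfRowLens w).card = w.sum := by
  induction w with
  | nil => simp [YoungDiagram.cellsOfRowLens]
  | cons a w ih =>
    rw [YoungDiagram.cellsOfRowLens, Finset.card_union_of_disjoint, Finset.card_map, ih]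
    · simp
    · rw [Finset.disjoint_left]
      rintro ⟨x, y⟩ h1 h2
      simp only [Finset.mem_product, Finset.mem_singleton] at h1
      obtain ⟨⟨x', y'⟩, _, h3⟩ := Finset.mem_map.1 h2
      have h4 : x' + 1 = x := congrArg Prod.fst h3
      omega

omit [DecidableEq Ω] in
theorem card_row_eq {μ : YoungDiagram} (t : Ω ≃ μ.cells) (i : ℕ) :
    (Finset.univ.filter fun a => (t a).1.1 = i).card = μ.rowLen i := by
  rw [YoungDiagram.rowLen_eq_card]
  refine Finset.card_bij (fun a _ => (t a).1) ?_ ?_ ?_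
  · intro a ha
    rw [YoungDiagram.mem_row_iff]
    exact ⟨(t a).2, (Finset.mem_filter.1 ha).2⟩
  · intro a _ b _ h
    exact t.injective (Subtype.ext h)
  · intro c hc
    rw [YoungDiagram.mem_row_iff] at hc
    exact ⟨t.symm ⟨c, hc.1⟩, by simp [hc.2], by simp⟩

/-- A complete family of tableaux. -/
theorem exists_family (Ω : Type) [Fintype Ω] :
    ∃ (Y : (Fintype.card Ω).Partition → YoungDiagram) (t : ∀ P, Ω ≃ (Y P).cells),
      ∀ P Q (g : Perm Ω), (fun a => (t P a).1.1) = (fun a => (t Q a).1.1) ∘ ⇑g → P = Q := by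
  have hsort : ∀ P : (Fintype.card Ω).Partition, (P.parts.sort (· ≥ ·)).SortedGE := fun P =>
    (Multiset.pairwise_sort P.parts (· ≥ ·)).sortedGE
  let Y : (Fintype.card Ω).Partition → YoungDiagram := fun P =>
    YoungDiagram.ofRowLens _ (hsort P)
  have hcard : ∀ P, Fintype.card Ω = Fintype.card (Y P).cells := by
    intro P
    rw [Fintype.card_coe]
    change _ = (YoungDiagram.cellsOfRowLens _).card
    rw [card_cellsOfRowLens, ← Multiset.sum_coe, Multiset.sort_eq, P.parts_sum]
  refine ⟨Y, fun P => Fintype.equivOfCardEq (hcard P), fun P Q g h => ?_⟩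
  have h1 : ∀ i, (Y P).rowLen i = (Y Q).rowLen i := by
    intro i
    rw [← card_row_eq (Fintype.equivOfCardEq (hcard P)),
      ← card_row_eq (Fintype.equivOfCardEq (hcard Q))]
    refine Finset.card_equiv g fun a => ?_
    simp only [Finset.mem_filter, Finset.mem_univ, true_and]
    rw [congrFun h a]
    rfl
  have h2 : Y P = Y Q := by
    ext ⟨i, j⟩
    simp only [YoungDiagram.mem_cells, YoungDiagram.mem_iff_lt_rowLen, h1]
  have hpos : ∀ P : (Fintype.card Ω).Partition, ∀ x ∈ P.parts.sort (· ≥ ·), 0 < x :=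
    fun P x hx => P.parts_pos ((Multiset.mem_sort _).1 hx)
  have h3 := congrArg YoungDiagram.rowLens h2
  rw [YoungDiagram.rowLens_ofRowLens_eq_self (hpos P),
    YoungDiagram.rowLens_ofRowLens_eq_self (hpos Q)] at h3
  apply Nat.Partition.ext
  rw [← Multiset.sort_eq P.parts (· ≥ ·), h3, Multiset.sort_eq]

omit [Fintype Ω] [DecidableEq Ω] in
theorem isColTab_of_tableau {μ : YoungDiagram} (t : Ω ≃ μ.cells) :
    IsColTab (fun a => (t a).1.1) (fun a => (t a).1.2) where
  inj a b h1 h2 := t.injective (Subtype.ext (Prod.ext h2 h1))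
  down a i hi := by
    have h : (i, (t a).1.2) ∈ μ.cells :=
      μ.up_left_mem hi.le le_rfl (show ((t a).1.1, (t a).1.2) ∈ μ from (t a).2)
    exact ⟨t.symm ⟨_, h⟩, by simp, by simp⟩

end Vale.Agent.P197
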