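import Vale.Agent.P197.James

namespace Vale.Agent.P197

open Equiv

/-- A diagram of triangular size has many cells in three rows or in three columns. -/
theorem three_rows_or_cols (m : ℕ) (ν : YoungDiagram) (hν : 2 * ν.card = (m + 2) * (m + 3)) :
    2 * m + 3 ≤ (ν.cells.filter fun c => c.1 < 3).card ∨
      2 * m + 3 ≤ (ν.cells.filter fun c => c.2 < 3).card := by
  by_contra hne
  push Not at hne
  obtain ⟨hR, hC⟩ := hne
  set R := ν.cells.filter fun c => c.1 < 3 with hRdef
  set C := ν.cells.filter fun c => c.2 < 3 with hCdef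
  have hun := Finset.card_union_add_card_inter R C
  have hmem : ∀ c : ℕ × ℕ, c ∈ R ∩ C ↔ c ∈ ν ∧ c.1 < 3 ∧ c.2 < 3 := by
    intro c
    simp only [hRdef, hCdef, Finset.mem_inter, Finset.mem_filter, YoungDiagram.mem_cells]
    tauto
  have hcard : ν.card = ν.cells.card := rfl
  by_cases h22 : (2, 2) ∈ ν
  · have ha : 2 < ν.rowLen 2 := YoungDiagram.mem_iff_lt_rowLen.1 h22
    have hb : 2 < ν.colLen 2 := YoungDiagram.mem_iff_lt_colLen.1 h22
    have h9 : 9 ≤ (R ∩ C).card := by
      have : Finset.range 3 ×ˢ Finset.range 3 ⊆ R ∩ C := by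
        rintro ⟨x, y⟩ h
        simp only [Finset.mem_product, Finset.mem_range] at h
        exact (hmem _).2 ⟨ν.up_left_mem (by omega) (by omega) h22, h.1, h.2⟩
      simpa using Finset.card_le_card this
    have hRa : 3 * ν.rowLen 2 ≤ R.card := by
      have : Finset.range 3 ×ˢ Finset.range (ν.rowLen 2) ⊆ R := by
        rintro ⟨x, y⟩ h
        simp only [Finset.mem_product, Finset.mem_range] at h
        simp only [hRdef, Finset.mem_filter, YoungDiagram.mem_cells]
        exact ⟨ν.up_left_mem (by omega) le_rfl (YoungDiagram.mem_iff_lt_rowLen.2 h.2), h.1⟩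
      simpa using Finset.card_le_card this
    have hCb : ν.colLen 2 * 3 ≤ C.card := by
      have : Finset.range (ν.colLen 2) ×ˢ Finset.range 3 ⊆ C := by
        rintro ⟨x, y⟩ h
        simp only [Finset.mem_product, Finset.mem_range] at h
        simp only [hCdef, Finset.mem_filter, YoungDiagram.mem_cells]
        exact ⟨ν.up_left_mem le_rfl (by omega) (YoungDiagram.mem_iff_lt_colLen.2 h.1), h.2⟩
      simpa using Finset.card_le_card this
    have hsub : ν.cells ⊆ (R ∪ C) ∪ (Finset.Ico 3 (ν.colLen 2) ×ˢ Finset.Ico 3 (ν.rowLen 2)) := by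
      rintro ⟨x, y⟩ h
      simp only [hRdef, hCdef, Finset.mem_union, Finset.mem_filter, YoungDiagram.mem_cells,
        Finset.mem_product, Finset.mem_Ico] at h ⊢
      by_cases hx : x < 3
      · exact Or.inl (Or.inl ⟨h, hx⟩)
      by_cases hy : y < 3
      · exact Or.inl (Or.inr ⟨h, hy⟩)
      refine Or.inr ⟨⟨by omega, ?_⟩, by omega, ?_⟩
      · exact YoungDiagram.mem_iff_lt_colLen.1 (ν.up_left_mem le_rfl (by omega) h)
      · exact YoungDiagram.mem_iff_lt_rowLen.1 (ν.up_left_mem (by omega) le_rfl h)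
    have h1 := (Finset.card_le_card hsub).trans (Finset.card_union_le _ _)
    rw [Finset.card_product, Nat.card_Ico, Nat.card_Ico] at h1
    obtain ⟨a, ha'⟩ : ∃ a, ν.rowLen 2 = a + 3 := ⟨ν.rowLen 2 - 3, by omega⟩
    obtain ⟨b, hb'⟩ : ∃ b, ν.colLen 2 = b + 3 := ⟨ν.colLen 2 - 3, by omega⟩
    rw [ha'] at hRa
    rw [hb'] at hCb
    rw [ha', hb', Nat.add_sub_cancel, Nat.add_sub_cancel] at h1
    have h2 : (3 * a + 7) * (3 * b + 7) ≤ (2 * m) * (2 * m) :=
      Nat.mul_le_mul (by omega) (by omega)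
    have h3 : (m + 2) * (m + 3) + 18 ≤ 2 * (4 * m + 4) + 2 * (b * a) := by omega
    have h4 : (0 : ℤ) ≤ ((m : ℤ) - 14) ^ 2 := sq_nonneg _
    zify at h2 h3
    nlinarith
  · have hsub : ν.cells ⊆ R ∪ C := by
      rintro ⟨x, y⟩ h
      simp only [hRdef, hCdef, Finset.mem_union, Finset.mem_filter, YoungDiagram.mem_cells] at h ⊢
      by_cases hx : x < 3
      · exact Or.inl ⟨h, hx⟩
      by_cases hy : y < 3
      · exact Or.inr ⟨h, hy⟩
      exact absurd (ν.up_left_mem (by omega) (by omega) h) h22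
    have h1 := Finset.card_le_card hsub
    have h3 : 3 ≤ (R ∩ C).card := by
      by_cases h02 : (0, 2) ∈ ν
      · have : Finset.range 1 ×ˢ Finset.range 3 ⊆ R ∩ C := by
          rintro ⟨x, y⟩ h
          simp only [Finset.mem_product, Finset.mem_range] at h
          exact (hmem _).2 ⟨ν.up_left_mem (by omega) (by omega) h02, by omega, h.2⟩
        simpa using Finset.card_le_card this
      by_cases h20 : (2, 0) ∈ ν
      · have : Finset.range 3 ×ˢ Finset.range 1 ⊆ R ∩ C := by
          rintro ⟨x, y⟩ h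
          simp only [Finset.mem_product, Finset.mem_range] at h
          exact (hmem _).2 ⟨ν.up_left_mem (by omega) (by omega) h20, h.1, by omega⟩
        simpa using Finset.card_le_card this
      have : ν.cells ⊆ R ∩ C := by
        rintro ⟨x, y⟩ h
        rw [YoungDiagram.mem_cells] at h
        refine (hmem _).2 ⟨h, ?_, ?_⟩
        · by_contra hx
          exact h20 (ν.up_left_mem (by simp at hx; omega) (by omega) h)
        · by_contra hy
          exact h02 (ν.up_left_mem (by omega) (by simp at hy; omega) h)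
      have h4 := Finset.card_le_card this
      nlinarith
    have h5 : (m + 2) * (m + 3) + 6 ≤ 2 * (4 * m + 4) := by omega
    rcases Nat.lt_or_ge m 4 with h6 | h6
    · interval_cases m <;> omega
    · nlinarith

variable {Ω : Type} [Fintype Ω] [DecidableEq Ω]

omit [DecidableEq Ω] in
theorem Stair.count_fiber {m : ℕ} {i j k : Ω → ℕ} (h : Stair m i j k) (t : ℕ) :
    (Finset.univ.filter fun a => i a = t).card = m - t := by
  rw [← Finset.card_range (m - t)]
  apply Finset.card_bij (fun a _ => j a)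
  · intro a ha
    have := h.sum a
    simp only [Finset.mem_filter, Finset.mem_univ, true_and] at ha
    rw [Finset.mem_range]
    omega
  · intro a ha b hb hab
    have := h.sum a
    have := h.sum b
    simp only [Finset.mem_filter, Finset.mem_univ, true_and] at ha hb
    exact h.inj a b hab (by omega)
  · intro x hx
    rw [Finset.mem_range] at hx
    obtain ⟨a, h1, h2⟩ := h.surj x (m - 1 - t - x) (by omega)
    have := h.sum a
    exact ⟨a, by simp only [Finset.mem_filter, Finset.mem_univ, true_and]; omega, h1⟩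

theorem count_gauss (m : ℕ) : 2 * ∑ t ∈ Finset.range m, (m - t) = m * (m + 1) := by
  induction m with
  | zero => simp
  | succ m ih =>
    rw [Finset.sum_range_succ']
    simp only [Nat.add_sub_add_right, Nat.sub_zero]
    rw [mul_add, ih]
    ring

omit [DecidableEq Ω] in
theorem Stair.card {m : ℕ} {i j k : Ω → ℕ} (h : Stair m i j k) :
    2 * Fintype.card Ω = m * (m + 1) := by
  rw [← count_gauss, ← Finset.card_univ,
    Finset.card_eq_sum_card_fiberwise (f := i) (t := Finset.range m)]
  · simp only [h.count_fiber]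
  · intro a _
    have := h.sum a
    simp only [Finset.coe_range, Set.mem_Iio]
    omega

omit [DecidableEq Ω] in
theorem Stair.card_top {m : ℕ} {i j k : Ω → ℕ} (h : Stair (m + 2) i j k) :
    Fintype.card {a // i a < 2} = 2 * (m + 1) + 1 := by
  classical
  rw [Fintype.card_subtype]
  have : (Finset.univ.filter fun a => i a < 2)
      = (Finset.univ.filter fun a => i a = 0) ∪ (Finset.univ.filter fun a => i a = 1) := by
    ext a
    simp only [Finset.mem_filter, Finset.mem_univ, true_and, Finset.mem_union]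
    omega
  rw [this, Finset.card_union_of_disjoint, h.count_fiber, h.count_fiber]
  · omega
  · rw [Finset.disjoint_filter]
    intro a _ h1 h2
    omega

/-- Uniqueness of the common tabloid. -/
theorem Stair.unique_word {m : ℕ} {i j k : Ω → ℕ} (h : Stair m i j k) {d d' : Perm Ω}
    (hd : d ∈ colGroup i) (hd' : d' ∈ colGroup k) (he : j ∘ ⇑d = j ∘ ⇑d') : d = 1 ∧ d' = 1 := by
  rw [mem_colGroup] at hd hd'
  have he' : ∀ a, j (d a) = j (d' a) := fun a => congrFun he a
  have h1 : ∑ a, (j (d a) : ℤ) * i a = ∑ a, (j a : ℤ) * i a := by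
    rw [← Equiv.sum_comp d (fun a => (j a : ℤ) * i a)]
    simp only [hd]
  have h2 : ∑ a, (j (d a) : ℤ) * k a = ∑ a, (j a : ℤ) * k a := by
    rw [← Equiv.sum_comp d' (fun a => (j a : ℤ) * k a)]
    simp only [hd', he']
  have h3 : ∑ a, (j (d a) : ℤ) ^ 2 = ∑ a, (j a : ℤ) ^ 2 :=
    Equiv.sum_comp d (fun a => (j a : ℤ) ^ 2)
  have h4 : ∑ a, (j (d a) : ℤ) = ∑ a, (j a : ℤ) := Equiv.sum_comp d (fun a => (j a : ℤ))
  have h5 : ∑ a, ((j (d a) : ℤ) - j a) ^ 2 = 0 := by
    have : ∀ a, ((j (d a) : ℤ) - j a) ^ 2 = ((j (d a) : ℤ) ^ 2 - (j a : ℤ) ^ 2)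
        - 2 * (m - 1) * ((j (d a) : ℤ) - j a) + 2 * ((j (d a) : ℤ) * i a - (j a : ℤ) * i a)
        + 2 * ((j (d a) : ℤ) * k a - (j a : ℤ) * k a) := by
      intro a
      have h6 : (m : ℤ) = i a + j a + k a + 1 := by exact_mod_cast (h.sum a).symm
      rw [h6]
      ring
    simp only [this, Finset.sum_add_distrib, Finset.sum_sub_distrib, ← Finset.mul_sum, h1, h2, h3,
      h4]
    ring
  rw [Finset.sum_eq_zero_iff_of_nonneg (fun a _ => sq_nonneg _)] at h5
  have h6 : ∀ a, j (d a) = j a := by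
    intro a
    have := h5 a (Finset.mem_univ a)
    rw [sq_eq_zero_iff, sub_eq_zero] at this
    exact_mod_cast this
  constructor
  · ext a
    have := h.sum a
    have := h.sum (d a)
    have := hd a
    have := h6 a
    exact h.inj _ _ (h6 a) (by simp only [Perm.coe_one, id]; omega)
  · ext a
    exact h.inj _ _ (by rw [← he', h6]; rfl) (hd' a)

/-- Uniqueness of the common set of letters in the first two rows. -/
theorem Stair.unique_top {m : ℕ} {i j k : Ω → ℕ} (h : Stair m i j k) {d d' : Perm Ω}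
    (hd : d ∈ colGroup j) (hd' : d' ∈ colGroup k) (he : ∀ a, i (d a) < 2 ↔ i (d' a) < 2) (a : Ω) :
    i (d a) < 2 ↔ i a < 2 := by
  rw [mem_colGroup] at hd hd'
  set χ : Ω → ℤ := fun a => if i a < 2 then 1 else 0 with hχ
  have he' : ∀ a, χ (d a) = χ (d' a) := fun a => by simp only [hχ, he]
  have h1 : ∑ a, χ (d a) * j a = ∑ a, χ a * j a := by
    rw [← Equiv.sum_comp d (fun a => χ a * j a)]
    simp only [hd]
  have h2 : ∑ a, χ (d a) * k a = ∑ a, χ a * k a := by
    rw [← Equiv.sum_comp d' (fun a => χ a * k a)]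
    simp only [hd', he']
  have h4 : ∑ a, χ (d a) = ∑ a, χ a := Equiv.sum_comp d χ
  have h5 : ∑ a, (χ (d a) - χ a) * (2 * i a - 3) = 0 := by
    have : ∀ a, (χ (d a) - χ a) * (2 * i a - 3) = (2 * m - 5) * (χ (d a) - χ a)
        - 2 * (χ (d a) * j a - χ a * j a) - 2 * (χ (d a) * k a - χ a * k a) := by
      intro a
      have h6 : (m : ℤ) = i a + j a + k a + 1 := by exact_mod_cast (h.sum a).symm
      rw [h6]
      ring
    simp only [this, Finset.sum_sub_distrib, ← Finset.mul_sum, h1, h2, h4]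
    ring
  rw [Finset.sum_eq_zero_iff_of_nonneg] at h5
  · have := h5 a (Finset.mem_univ a)
    simp only [hχ] at this
    split_ifs at this <;> omega
  · intro b _
    simp only [hχ]
    split_ifs <;> omega

omit [Fintype Ω] [DecidableEq Ω] in
/-- The first two antidiagonals of the triangle form a path. -/
theorem Stair.exists_path {m : ℕ} {i j k : Ω → ℕ} (h : Stair (m + 2) i j k) :
    ∃ x : ℕ → {a // i a < 2},
      IsPath (m + 1) (fun a : {a // i a < 2} => j a) (fun a : {a // i a < 2} => k a) x := by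
  have hex : ∀ s : ℕ, ∃ a : {a // i a < 2}, s ≤ 2 * (m + 1) →
      j a = m + 1 - (s + 1) / 2 ∧ k a = s / 2 := by
    intro s
    by_cases hs : s ≤ 2 * (m + 1)
    · obtain ⟨a, h1, h2⟩ := h.surj (m + 1 - (s + 1) / 2) (s / 2) (by omega)
      have := h.sum a
      exact ⟨⟨a, by omega⟩, fun _ => ⟨h1, h2⟩⟩
    · obtain ⟨a, h1, h2⟩ := h.surj (m + 1) 0 (by omega)
      have := h.sum a
      exact ⟨⟨a, by omega⟩, fun h => absurd h hs⟩
  choose x hx using hex
  refine ⟨x, ?_, ?_, ?_, ?_⟩
  · intro b hb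
    have h1 := hx 0 (by omega)
    have := h.sum b
    exact Subtype.ext (h.inj _ _ hb (by omega))
  · intro l hl
    have h1 := hx (2 * l) (by omega)
    have h2 := hx (2 * l + 1) (by omega)
    omega
  · intro l hl
    have h1 := hx (2 * l + 1) (by omega)
    have h2 := hx (2 * l + 2) (by omega)
    omega
  · intro s t hs ht hst
    have h1 := hx s hs
    have h2 := hx t ht
    rw [hst] at h1
    omega

omit [Fintype Ω] [DecidableEq Ω] in
/-- The first two rows of a staircase tableau. -/
theorem IsStairTab.top {m : ℕ} {r c : Ω → ℕ} (h : IsStairTab (m + 2) r c) {p : Ω → Prop}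
    (hp : ∀ a, r a < 2 ↔ p a) :
    TwoRow (fun a : {a // p a} => r a) (fun a : {a // p a} => c a) := by
  refine ⟨⟨fun a b h1 h2 => Subtype.ext (h.inj _ _ h1 h2), fun a i hi => ?_⟩,
    fun a => (hp a).2 a.2, ?_⟩
  · have h1 := (hp a).2 a.2
    have h2 := h.lt a
    obtain ⟨b, h3, h4⟩ := h.surj i (c a) (by omega)
    exact ⟨⟨b, (hp b).1 (by omega)⟩, h4, h3⟩
  · obtain ⟨z, hz1, hz2⟩ := h.surj 0 (m + 1) (by omega)
    have hz : ∀ b, c b = m + 1 → b = z := by
      intro b hb
      have := h.lt b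
      exact h.inj _ _ (by omega) (by omega)
    refine ⟨⟨z, (hp z).1 (by omega)⟩, fun b hb => Subtype.ext (hz b (by simp only at hb; omega)),
      fun y hy => Subtype.ext (hz y ?_)⟩
    by_contra hne
    have h1 := (hp y).2 y.2
    have h2 := h.lt y
    obtain ⟨b, h3, h4⟩ := h.surj (1 - r y) (c y) (by omega)
    have h5 := congrArg Subtype.val (hy ⟨b, (hp b).1 (by omega)⟩ h4)
    simp only at h5
    rw [h5] at h3
    omega

omit [Fintype Ω] [DecidableEq Ω] in
/-- The remaining rows of a staircase tableau. -/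
theorem IsStairTab.bot {m : ℕ} {r c : Ω → ℕ} (h : IsStairTab (m + 2) r c) {p : Ω → Prop}
    (hp : ∀ a, r a < 2 ↔ p a) :
    IsStairTab m (fun a : {a // ¬ p a} => r a - 2) (fun a : {a // ¬ p a} => c a) := by
  have hge : ∀ a : {a // ¬ p a}, 2 ≤ r a := fun a => not_lt.1 fun hh => a.2 ((hp a).1 hh)
  refine ⟨fun a => ?_, fun a b h1 h2 => ?_, fun x y hxy => ?_⟩
  · have := h.lt a
    have := hge a
    omega
  · have := hge a
    have := hge b
    exact Subtype.ext (h.inj _ _ h1 (by omega))
  · obtain ⟨a, h1, h2⟩ := h.surj (x + 2) y (by omega)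
    refine ⟨⟨a, fun hh => ?_⟩, by simp only; omega, h2⟩
    have := (hp a).2 hh
    omega

omit [Fintype Ω] [DecidableEq Ω] in
theorem Stair.bot {m : ℕ} {i j k : Ω → ℕ} (h : Stair (m + 2) i j k) :
    Stair m (fun a : {a // ¬ i a < 2} => i a - 2) (fun a : {a // ¬ i a < 2} => j a)
      (fun a : {a // ¬ i a < 2} => k a) := by
  refine ⟨fun a => ?_, fun a b h1 h2 => Subtype.ext (h.inj _ _ h1 h2), fun x y hxy => ?_⟩
  · have := h.sum a
    have := a.2
    omega
  · obtain ⟨a, h1, h2⟩ := h.surj x y (by omega)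
    have := h.sum a
    exact ⟨⟨a, by omega⟩, h1, h2⟩

end Vale.Agent.P197
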