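import Vale.Agent.P197.James

namespace Vale.Agent.P197

open Equiv TensorProduct

universe u

variable {Ω : Type} [Fintype Ω] [DecidableEq Ω] {V : Type u} [AddCommGroup V] [Module ℂ V]
  (p : Ω → Prop) [DecidablePred p]

/-- The component of a vector on the words whose first two rows are the set `p`. -/
noncomputable def cut : Wd Ω →ₗ[ℂ] Wd {a // p a} ⊗[ℂ] Wd {a // ¬ p a} :=
  Finsupp.linearCombination ℂ fun w => if ∀ a, w a < 2 ↔ p a then
    Finsupp.single (fun a : {a // p a} => w a) 1 ⊗ₜ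
      Finsupp.single (fun a : {a // ¬ p a} => w a - 2) 1 else 0

omit [DecidableEq Ω] in
theorem cut_single (w : Ω → ℕ) (z : ℂ) : cut p (Finsupp.single w z) =
    z • if ∀ a, w a < 2 ↔ p a then Finsupp.single (fun a : {a // p a} => w a) 1 ⊗ₜ
      Finsupp.single (fun a : {a // ¬ p a} => w a - 2) 1 else 0 := by
  rw [cut, Finsupp.linearCombination_single]

omit [Fintype Ω] [DecidableEq Ω] in
theorem subtypeCongr_iff (s : Perm {a // p a}) (t : Perm {a // ¬ p a}) (a : Ω) :
    p (s.subtypeCongr t a) ↔ p a := by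
  by_cases h : p a
  · rw [Perm.subtypeCongr.left_apply _ _ h]
    exact iff_of_true (s ⟨a, h⟩).2 h
  · rw [Perm.subtypeCongr.right_apply _ _ h]
    exact iff_of_false (t ⟨a, h⟩).2 h

omit [Fintype Ω] [DecidableEq Ω] in
theorem subtypeCongr_inv (s : Perm {a // p a}) (t : Perm {a // ¬ p a}) :
    (s.subtypeCongr t)⁻¹ = (s⁻¹).subtypeCongr t⁻¹ :=
  Perm.subtypeCongr.symm s t

omit [DecidableEq Ω] in
theorem cut_subtypeCongr (s : Perm {a // p a}) (t : Perm {a // ¬ p a}) (x : Wd Ω) :
    cut p (wordRep Ω (s.subtypeCongr t) x) =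
      TensorProduct.map (wordRep _ s) (wordRep _ t) (cut p x) := by
  induction x using Finsupp.induction_linear with
  | zero => simp
  | add x y hx hy => simp [hx, hy]
  | single w z =>
    rw [wordRep_single, cut_single, cut_single, map_smul, subtypeCongr_inv]
    congr 1
    have hiff : (∀ a, (w ∘ ⇑((s⁻¹).subtypeCongr t⁻¹)) a < 2 ↔ p a) ↔ ∀ a, w a < 2 ↔ p a := by
      constructor
      · intro h a
        have := h (s.subtypeCongr t a)
        rw [subtypeCongr_iff p, ← subtypeCongr_inv, Function.comp_apply, Perm.inv_def,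
          Equiv.symm_apply_apply] at this
        exact this
      · intro h a
        rw [Function.comp_apply, h, subtypeCongr_iff p]
    by_cases h : ∀ a, w a < 2 ↔ p a
    · rw [if_pos h, if_pos (hiff.2 h), TensorProduct.map_tmul, wordRep_single, wordRep_single]
      congr 2
      · ext a
        simp
      · ext a
        simp only [Function.comp_apply]
        rw [Perm.subtypeCongr.right_apply_subtype]
    · rw [if_neg h, if_neg (fun hh => h (hiff.1 hh)), map_zero]

omit [Fintype Ω] [DecidableEq Ω] in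
theorem eq_subtypeCongr (g : Perm Ω) (hg : ∀ a, p (g a) ↔ p a) :
    g = (g.subtypePerm hg).subtypeCongr (g.subtypePerm fun a => not_congr (hg a)) := by
  ext a
  by_cases h : p a
  · rw [Perm.subtypeCongr.left_apply _ _ h]
    rfl
  · rw [Perm.subtypeCongr.right_apply _ _ h]
    rfl

omit [Fintype Ω] [DecidableEq Ω] in
theorem subtypeCongr_eq_mul (s : Perm {a // p a}) (t : Perm {a // ¬ p a}) :
    s.subtypeCongr t = Perm.ofSubtype s * Perm.ofSubtype t := by
  ext a
  by_cases h : p a
  · rw [Perm.subtypeCongr.left_apply _ _ h, Perm.mul_apply,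
      Perm.ofSubtype_apply_of_not_mem t (not_not.2 h), Perm.ofSubtype_apply_of_mem s h]
  · rw [Perm.subtypeCongr.right_apply _ _ h, Perm.mul_apply, Perm.ofSubtype_apply_of_mem t h,
      Perm.ofSubtype_apply_of_not_mem s (t ⟨a, h⟩).2]

omit [Fintype Ω] [DecidableEq Ω] in
theorem ofSubtype_comm (s : Perm {a // p a}) (t : Perm {a // ¬ p a}) :
    Perm.ofSubtype t * Perm.ofSubtype s = Perm.ofSubtype s * Perm.ofSubtype t := by
  rw [← subtypeCongr_eq_mul]
  ext a
  by_cases h : p a
  · rw [Perm.subtypeCongr.left_apply _ _ h, Perm.mul_apply, Perm.ofSubtype_apply_of_mem s h,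
      Perm.ofSubtype_apply_of_not_mem t (not_not.2 (s ⟨a, h⟩).2)]
  · rw [Perm.subtypeCongr.right_apply _ _ h, Perm.mul_apply,
      Perm.ofSubtype_apply_of_not_mem s h, Perm.ofSubtype_apply_of_mem t h]

theorem cut_polytabloid {r c : Ω → ℕ} (hr : ∀ a, r a < 2 ↔ p a) :
    cut p (polytabloid r c) =
      polytabloid (fun a : {a // p a} => r a) (fun a : {a // p a} => c a) ⊗ₜ
        polytabloid (fun a : {a // ¬ p a} => r a - 2) (fun a : {a // ¬ p a} => c a) := by
  classical
  have h0 : cut p (Finsupp.single r 1) = Finsupp.single (fun a : {a // p a} => r a) 1 ⊗ₜ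
      Finsupp.single (fun a : {a // ¬ p a} => r a - 2) 1 := by
    rw [cut_single, if_pos hr, one_smul]
  rw [polytabloid_eq_kappa, polytabloid_eq_kappa, polytabloid_eq_kappa, kappa_apply, kappa_apply,
    kappa_apply, map_sum, TensorProduct.sum_tmul]
  simp_rw [TensorProduct.tmul_sum]
  rw [← Finset.sum_product']
  rw [← Finset.sum_filter_add_sum_filter_not _ (fun g : Perm Ω => ∀ a, p (g a) ↔ p a)]
  rw [Finset.sum_eq_zero (s := Finset.filter (fun g : Perm Ω => ¬ ∀ a, p (g a) ↔ p a) _), add_zero]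
  · symm
    refine Finset.sum_bij (fun st _ => st.1.subtypeCongr st.2) ?_ ?_ ?_ ?_
    · rintro ⟨s, t⟩ hst
      rw [Finset.mem_product, mem_colGroup, mem_colGroup] at hst
      rw [Finset.mem_filter, mem_colGroup]
      refine ⟨fun a => ?_, subtypeCongr_iff p s t⟩
      by_cases h : p a
      · rw [Perm.subtypeCongr.left_apply _ _ h]
        exact hst.1 ⟨a, h⟩
      · rw [Perm.subtypeCongr.right_apply _ _ h]
        exact hst.2 ⟨a, h⟩
    · intro st _ st' _ h
      exact Perm.subtypeCongrHom_injective p h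
    · intro g hg
      rw [Finset.mem_filter, mem_colGroup] at hg
      refine ⟨(g.subtypePerm hg.2, g.subtypePerm fun a => not_congr (hg.2 a)), ?_,
        (eq_subtypeCongr p g hg.2).symm⟩
      rw [Finset.mem_product, mem_colGroup, mem_colGroup]
      exact ⟨fun a => hg.1 a, fun a => hg.1 a⟩
    · rintro ⟨s, t⟩ _
      rw [map_smul, cut_subtypeCongr, h0, TensorProduct.map_tmul, Perm.sign_subtypeCongr,
        TensorProduct.smul_tmul_smul]
      simp
  · intro g hg
    rw [Finset.mem_filter] at hg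
    rw [map_smul, wordRep_single, cut_single, if_neg, smul_zero, smul_zero]
    intro h
    apply hg.2
    intro a
    rw [← h (g a), ← hr]
    simp

theorem exists_of_cut_ne_zero {r c : Ω → ℕ} (h : cut p (polytabloid r c) ≠ 0) :
    ∃ d ∈ colGroup c, ∀ a, r (d a) < 2 ↔ p a := by
  rw [polytabloid_eq_sum, map_sum] at h
  obtain ⟨d, hd, hne⟩ := Finset.exists_ne_zero_of_sum_ne_zero h
  refine ⟨d⁻¹, inv_mem_colGroup hd, ?_⟩
  by_contra hh
  have hh' : ¬ ∀ a, (r ∘ ⇑d⁻¹) a < 2 ↔ p a := hh
  rw [map_smul, cut_single, if_neg hh', smul_zero, smul_zero] at hne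
  exact hne rfl

omit [DecidableEq Ω] in
/-- Induction of an equivariant bilinear map from a subgroup. -/
theorem exists_transfer (ρ : Representation ℂ (Perm Ω) V) (H : Subgroup (Perm Ω))
    (B₀ : Wd Ω →ₗ[ℂ] Wd Ω →ₗ[ℂ] V)
    (hB₀ : ∀ g ∈ H, ∀ x y, B₀ (wordRep Ω g x) (wordRep Ω g y) = ρ g (B₀ x y)) :
    ∃ B : Wd Ω →ₗ[ℂ] Wd Ω →ₗ[ℂ] V, Equivar ρ B ∧
      (∀ x y, (∀ g ∉ H, B₀ (wordRep Ω g⁻¹ x) (wordRep Ω g⁻¹ y) = 0) → B x y = B₀ x y) ∧
      ∀ (Γ : Submodule ℤ V) x y,
        (∀ g, ρ g (B₀ (wordRep Ω g⁻¹ x) (wordRep Ω g⁻¹ y)) ∈ Γ) → B x y ∈ Γ := by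
  classical
  let T : Perm Ω → Wd Ω →ₗ[ℂ] Wd Ω →ₗ[ℂ] V := fun g =>
    (B₀.compl₁₂ (wordRep Ω g⁻¹) (wordRep Ω g⁻¹)).compr₂ (ρ g)
  have hT : ∀ g x y, T g x y = ρ g (B₀ (wordRep Ω g⁻¹ x) (wordRep Ω g⁻¹ y)) := fun _ _ _ => rfl
  have hTH : ∀ g, ∀ h ∈ H, T (g * h) = T g := by
    intro g h hh
    refine LinearMap.ext fun x => LinearMap.ext fun y => ?_
    rw [hT, hT, mul_inv_rev, map_mul, map_mul, Module.End.mul_apply, Module.End.mul_apply,
      Module.End.mul_apply, hB₀ _ (H.inv_mem hh), Representation.self_inv_apply]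
  let Tq : Perm Ω ⧸ H → Wd Ω →ₗ[ℂ] Wd Ω →ₗ[ℂ] V := fun q => Quotient.liftOn' q T (by
    intro a b hab
    have := hTH a _ (QuotientGroup.leftRel_apply.1 hab)
    rw [mul_inv_cancel_left] at this
    exact this.symm)
  have hTq : ∀ g : Perm Ω, Tq (g : Perm Ω ⧸ H) = T g := fun _ => rfl
  have hsum : ∀ x y, (∑ q, Tq q) x y = ∑ q, Tq q x y := by
    intro x y
    rw [LinearMap.sum_apply, LinearMap.sum_apply]
  refine ⟨∑ q, Tq q, ?_, ?_, ?_⟩
  · intro g x y
    rw [hsum, hsum, map_sum]
    refine (Fintype.sum_equiv (MulAction.toPerm g) _ _ ?_).symm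
    intro q
    induction q using QuotientGroup.induction_on with
    | H a =>
      have : MulAction.toPerm g (a : Perm Ω ⧸ H) = ((g * a : Perm Ω) : Perm Ω ⧸ H) := rfl
      rw [this, hTq, hTq, hT, hT, mul_inv_rev, map_mul, map_mul, Module.End.mul_apply,
        Module.End.mul_apply, Module.End.mul_apply, Representation.inv_self_apply,
        Representation.inv_self_apply]
  · intro x y h
    rw [hsum, Finset.sum_eq_single ((1 : Perm Ω) : Perm Ω ⧸ H)]
    · rw [hTq, hT]
      simp
    · intro q _ hq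
      induction q using QuotientGroup.induction_on with
      | H a =>
        rw [hTq, hT, h a, map_zero]
        intro ha
        apply hq
        rw [QuotientGroup.eq]
        simpa using ha
    · intro hh
      exact absurd (Finset.mem_univ _) hh
  · intro Γ x y h
    rw [hsum]
    refine Submodule.sum_mem _ fun q _ => ?_
    induction q using QuotientGroup.induction_on with
    | H a => exact h a

end Vale.Agent.P197
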