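import Mathlib

namespace Vale.Agent.P197

open Equiv

/-- The permutation representation of the symmetric group on `Ω` on the complex vector space with
basis the words `w : Ω → ℕ`.  A word is a tabloid: `w a` is the row in which the letter `a` stands.
The permutation `g` sends the basis vector of `w` to the basis vector of `w ∘ g⁻¹`. -/
noncomputable def wordRep (Ω : Type) : Representation ℂ (Perm Ω) ((Ω → ℕ) →₀ ℂ) where
  toFun g := Finsupp.lmapDomain ℂ ℂ (fun w : Ω → ℕ => w ∘ ⇑g⁻¹)
  map_one' := by
    ext w
    simp
  map_mul' g h := by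
    ext w
    simp [Function.comp_assoc]

/-- The polytabloid of a filling in which the letter `a` stands in row `row a` and column `col a`:
the signed sum, over the permutations `c` preserving every column, of `c` applied to the tabloid
`row`. -/
noncomputable def polytabloid {Ω : Type} [Fintype Ω] [DecidableEq Ω] (row col : Ω → ℕ) :
    (Ω → ℕ) →₀ ℂ :=
  ∑ c ∈ Finset.univ.filter (fun c : Perm Ω => ∀ a, col (c a) = col a),
    ((Perm.sign c : ℤ) : ℂ) • wordRep Ω c (Finsupp.single row 1)

theorem wordRep_polytabloid {Ω : Type} [Fintype Ω] [DecidableEq Ω] (g : Perm Ω)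
    (row col : Ω → ℕ) :
    wordRep Ω g (polytabloid row col) = polytabloid (row ∘ ⇑g⁻¹) (col ∘ ⇑g⁻¹) := by
  unfold polytabloid
  rw [map_sum]
  refine Finset.sum_nbij' (fun c => g * c * g⁻¹) (fun c => g⁻¹ * c * g) ?_ ?_ ?_ ?_ ?_
  · intro c hc
    simp only [Finset.mem_filter, Finset.mem_univ, true_and] at hc ⊢
    intro a
    simp [hc]
  · intro c hc
    simp only [Finset.mem_filter, Finset.mem_univ, true_and] at hc ⊢
    intro a
    simpa using hc (g a)
  · intro c _
    group
  · intro c _
    group
  · intro c _
    have h1 : Perm.sign (g * c * g⁻¹) = Perm.sign c := by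
      simp [mul_comm (Perm.sign g), mul_assoc]
    have h2 : Finsupp.single (row ∘ ⇑g⁻¹) (1 : ℂ) = wordRep Ω g (Finsupp.single row 1) := by
      simp [wordRep]
    rw [h1, h2, map_smul, ← Module.End.mul_apply, ← Module.End.mul_apply, ← map_mul, ← map_mul]
    simp

/-- The Specht module of the Young diagram `μ` for the symmetric group on `Ω`: the span of the
polytabloids of all tableaux (bijective fillings `t : Ω ≃ μ.cells`) of shape `μ`. -/
noncomputable def specht (Ω : Type) [Fintype Ω] [DecidableEq Ω] (μ : YoungDiagram) :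
    Subrepresentation (wordRep Ω) where
  toSubmodule := Submodule.span ℂ
    (Set.range fun t : Ω ≃ μ.cells => polytabloid (fun a => (t a).1.1) (fun a => (t a).1.2))
  apply_mem_toSubmodule g v hv := by
    refine Submodule.span_induction (fun x hx => ?_) (by simp) (fun x y _ _ hx hy => ?_)
      (fun z x _ hx => ?_) hv
    · obtain ⟨t, rfl⟩ := hx
      rw [wordRep_polytabloid]
      exact Submodule.subset_span ⟨(g⁻¹ : Perm Ω).trans t, rfl⟩
    · rw [map_add]
      exact Submodule.add_mem _ hx hy
    · rw [map_smul]
      exact Submodule.smul_mem _ _ hx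

/-- The Specht module `S^μ` as an object of the category of complex representations of `S_n`. -/
noncomputable def spechtRep (n : ℕ) (μ : YoungDiagram) : Rep ℂ (Perm (Fin n)) :=
  Rep.of (X := (specht (Fin n) μ).toSubmodule) (specht (Fin n) μ).toRepresentation

open CategoryTheory MonoidalCategory in
/-- The Kronecker coefficient `g(l, μ, ν) = dim Hom_{S_n}(S^ν, S^l ⊗ S^μ)`. -/
noncomputable def kronecker (n : ℕ) (l μ ν : YoungDiagram) : ℕ :=
  Module.finrank ℂ (spechtRep n ν ⟶ spechtRep n l ⊗ spechtRep n μ)

/-- The staircase diagram `(m, m-1, …, 1)`: the cells `(i, j)` with `i + j < m`. -/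
def staircase (m : ℕ) : YoungDiagram where
  cells := (Finset.range m ×ˢ Finset.range m).filter fun c => c.1 + c.2 < m
  isLowerSet := by
    rintro ⟨a, b⟩ ⟨c, d⟩ ⟨h1, h2⟩ h
    simp only [Finset.coe_filter, Finset.mem_product, Finset.mem_range, Set.mem_ofPred_eq] at *
    omega

end Vale.Agent.P197
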