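import Vale.Agent.P197.Basic

namespace Vale.Agent.P197

open Equiv

universe u

variable {Ω : Type} [Fintype Ω] [DecidableEq Ω]

omit [Fintype Ω] [DecidableEq Ω] in
theorem IsColTab.comp {Ω' : Type} {row col : Ω → ℕ} (h : IsColTab row col) (e : Ω' ≃ Ω) :
    IsColTab (row ∘ e) (col ∘ e) where
  inj a b h1 h2 := e.injective (h.inj _ _ h1 h2)
  down a i hi := by
    obtain ⟨b, h1, h2⟩ := h.down (e a) i hi
    exact ⟨e.symm b, by simpa using h1, by simpa using h2⟩

omit [Fintype Ω] [DecidableEq Ω] in
theorem TwoRow.comp {Ω' : Type} {row col : Ω → ℕ} (h : TwoRow row col) (e : Ω' ≃ Ω) :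
    TwoRow (row ∘ e) (col ∘ e) where
  tab := h.tab.comp e
  lt_two a := h.lt_two _
  single := by
    obtain ⟨z, hz, huniq⟩ := h.single
    refine ⟨e.symm z, fun b hb => ?_, fun y hy => ?_⟩
    · have := hz (e b) (by simpa using hb)
      rw [← this]
      simp
    · have := huniq (e y) (fun b hb => by
        have := hy (e.symm b) (by simpa using hb)
        rw [← this]
        simp)
      rw [← this]
      simp

omit [Fintype Ω] [DecidableEq Ω] in
theorem IsStairTab.comp {Ω' : Type} {m : ℕ} {row col : Ω → ℕ} (h : IsStairTab m row col)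
    (e : Ω' ≃ Ω) : IsStairTab m (row ∘ e) (col ∘ e) where
  lt a := h.lt _
  inj a b h1 h2 := e.injective (h.inj _ _ h1 h2)
  surj x y hxy := by
    obtain ⟨a, h1, h2⟩ := h.surj x y hxy
    exact ⟨e.symm a, by simpa using h1, by simpa using h2⟩

omit [Fintype Ω] [DecidableEq Ω] in
theorem IsStairTab.isColTab {m : ℕ} {row col : Ω → ℕ} (h : IsStairTab m row col) :
    IsColTab row col where
  inj := h.inj
  down a i hi := by
    have := h.lt a
    obtain ⟨b, h1, h2⟩ := h.surj i (col a) (by omega)
    exact ⟨b, h2, h1⟩

omit [Fintype Ω] [DecidableEq Ω] in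
theorem Stair.rot {m : ℕ} {i j k : Ω → ℕ} (h : Stair m i j k) : Stair m j k i where
  sum a := by have := h.sum a; omega
  inj a b h1 h2 := h.inj a b (by have := h.sum a; have := h.sum b; omega) h1
  surj x y hxy := by
    obtain ⟨a, h1, h2⟩ := h.surj (m - 1 - x - y) x (by omega)
    exact ⟨a, h2, by have := h.sum a; omega⟩

omit [Fintype Ω] [DecidableEq Ω] in
theorem Stair.swap {m : ℕ} {i j k : Ω → ℕ} (h : Stair m i j k) : Stair m i k j where
  sum a := by have := h.sum a; omega
  inj a b h1 h2 := h.inj a b h2 h1
  surj x y hxy := by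
    obtain ⟨a, h1, h2⟩ := h.surj y x (by omega)
    exact ⟨a, h2, h1⟩

omit [Fintype Ω] [DecidableEq Ω] in
theorem Stair.tab {m : ℕ} {i j k : Ω → ℕ} (h : Stair m i j k) : IsStairTab m j k where
  lt a := by have := h.sum a; omega
  inj a b h1 h2 := h.inj a b h2 h1
  surj := h.surj

omit [DecidableEq Ω] in
/-- The image of a column under `row` is an initial segment. -/
theorem IsColTab.image_col {row col : Ω → ℕ} (h : IsColTab row col) (y : ℕ) :
    (Finset.univ.filter fun a => col a = y).image row =
      Finset.range (Finset.univ.filter fun a => col a = y).card := by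
  set S := Finset.univ.filter fun a => col a = y with hS
  have hinj : Set.InjOn row S := by
    intro a ha b hb hab
    simp only [hS, Finset.coe_filter, Finset.mem_univ, true_and, Set.mem_ofPred_eq] at ha hb
    exact h.inj a b (ha.trans hb.symm) hab
  have hcard : (S.image row).card = S.card := Finset.card_image_of_injOn hinj
  have hdown : ∀ n ∈ S.image row, ∀ i < n, i ∈ S.image row := by
    intro n hn i hi
    obtain ⟨a, ha, rfl⟩ := Finset.mem_image.1 hn
    obtain ⟨b, h1, h2⟩ := h.down a i hi
    refine Finset.mem_image.2 ⟨b, ?_, h2⟩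
    simp only [hS, Finset.mem_filter, Finset.mem_univ, true_and] at ha ⊢
    rw [h1, ha]
  apply Finset.eq_of_subset_of_card_le
  · intro n hn
    rw [Finset.mem_range, ← hcard]
    have : Finset.range (n + 1) ⊆ S.image row := by
      intro i hi
      rcases (Nat.lt_succ_iff.1 (Finset.mem_range.1 hi)).lt_or_eq with h1 | h1
      · exact hdown n hn i h1
      · rw [h1]; exact hn
    have := Finset.card_le_card this
    simp only [Finset.card_range] at this
    omega
  · rw [Finset.card_range, hcard]

theorem sum_range_le_and (n : ℕ) : ∀ T : Finset ℕ, T.card = n →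
    ∑ i ∈ Finset.range n, i ≤ ∑ i ∈ T, i ∧
      (∑ i ∈ T, i ≤ ∑ i ∈ Finset.range n, i → T = Finset.range n) := by
  induction n with
  | zero =>
    intro T hT
    rw [Finset.card_eq_zero] at hT
    simp [hT]
  | succ n ih =>
    intro T hT
    have hne : T.Nonempty := Finset.card_pos.1 (by omega)
    have hmem := T.max'_mem hne
    set M := T.max' hne with hM
    have hcard : (T.erase M).card = n := by
      rw [Finset.card_erase_of_mem hmem]
      omega
    have hMn : n ≤ M := by
      have : T ⊆ Finset.range (M + 1) := by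
        intro x hx
        rw [Finset.mem_range, Nat.lt_succ_iff]
        exact T.le_max' x hx
      have := Finset.card_le_card this
      rw [Finset.card_range] at this
      omega
    obtain ⟨h1, h2⟩ := ih _ hcard
    have hsum : ∑ i ∈ T, i = M + ∑ i ∈ T.erase M, i := by
      rw [Finset.add_sum_erase _ (fun i => i) hmem]
    rw [Finset.sum_range_succ, hsum]
    refine ⟨by omega, fun h => ?_⟩
    have h3 : M = n := by omega
    have h4 := h2 (by omega)
    rw [Finset.range_add_one, ← h4, ← h3, Finset.insert_erase hmem]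

omit [DecidableEq Ω] in
theorem sum_fiber (col f : Ω → ℕ) : ∑ a, f a =
    ∑ y ∈ Finset.univ.image col, ∑ a ∈ Finset.univ.filter (fun a => col a = y), f a := by
  rw [Finset.sum_fiberwise_of_maps_to]
  intro a _
  exact Finset.mem_image_of_mem _ (Finset.mem_univ a)

omit [DecidableEq Ω] in
theorem fiber_sum_eq {col w : Ω → ℕ} (hw : ∀ a b, col a = col b → w a = w b → a = b) (y : ℕ) :
    ((Finset.univ.filter fun a => col a = y).image w).card =
      (Finset.univ.filter fun a => col a = y).card ∧
    ∑ a ∈ Finset.univ.filter (fun a => col a = y), w a =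
      ∑ i ∈ (Finset.univ.filter fun a => col a = y).image w, i := by
  have hinj : Set.InjOn w (Finset.univ.filter fun a => col a = y) := by
    intro a ha b hb hab
    simp only [Finset.coe_filter, Finset.mem_univ, true_and, Set.mem_ofPred_eq] at ha hb
    exact hw a b (ha.trans hb.symm) hab
  exact ⟨Finset.card_image_of_injOn hinj, by rw [Finset.sum_image hinj]⟩

omit [DecidableEq Ω] in
theorem IsColTab.fiber_le {row col w : Ω → ℕ} (h : IsColTab row col)
    (hw : ∀ a b, col a = col b → w a = w b → a = b) (y : ℕ) :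
    ∑ a ∈ Finset.univ.filter (fun a => col a = y), row a ≤
      ∑ a ∈ Finset.univ.filter (fun a => col a = y), w a := by
  rw [(fiber_sum_eq h.inj y).2, (fiber_sum_eq hw y).2, h.image_col]
  exact (sum_range_le_and _ _ (fiber_sum_eq hw y).1).1

omit [DecidableEq Ω] in
theorem IsColTab.sum_le {row col w : Ω → ℕ} (h : IsColTab row col)
    (hw : ∀ a b, col a = col b → w a = w b → a = b) : ∑ a, row a ≤ ∑ a, w a := by
  rw [sum_fiber col row, sum_fiber col w]
  exact Finset.sum_le_sum fun y _ => h.fiber_le hw y

/-- A word injective on the columns whose sum is minimal is a column permutation of `row`. -/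
theorem IsColTab.exists_of_sum_le {row col w : Ω → ℕ} (h : IsColTab row col)
    (hw : ∀ a b, col a = col b → w a = w b → a = b) (hs : ∑ a, w a ≤ ∑ a, row a) :
    ∃ c ∈ colGroup col, w = row ∘ ⇑c := by
  have heq : ∀ y ∈ Finset.univ.image col,
      ∑ a ∈ Finset.univ.filter (fun a => col a = y), row a =
        ∑ a ∈ Finset.univ.filter (fun a => col a = y), w a := by
    rw [← Finset.sum_eq_sum_iff_of_le fun y _ => h.fiber_le hw y, ← sum_fiber, ← sum_fiber]
    exact le_antisymm (h.sum_le hw) hs
  have hex : ∀ a, ∃ b, col b = col a ∧ row b = w a := by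
    intro a
    have h1 := heq (col a) (Finset.mem_image_of_mem _ (Finset.mem_univ a))
    rw [(fiber_sum_eq h.inj _).2, (fiber_sum_eq hw _).2, h.image_col] at h1
    have h2 := (sum_range_le_and _ _ (fiber_sum_eq hw (col a)).1).2 h1.symm.le
    rw [← h.image_col] at h2
    have h3 : w a ∈ (Finset.univ.filter fun b => col b = col a).image w :=
      Finset.mem_image_of_mem _ (by simp)
    rw [h2] at h3
    obtain ⟨b, hb, hb2⟩ := Finset.mem_image.1 h3
    exact ⟨b, by simpa using hb, hb2⟩
  choose f hf1 hf2 using hex
  have hinj : Function.Injective f := by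
    intro a b hab
    apply hw
    · rw [← hf1 a, ← hf1 b, hab]
    · rw [← hf2 a, ← hf2 b, hab]
  refine ⟨Equiv.ofBijective f (Finite.injective_iff_bijective.1 hinj), ?_, ?_⟩
  · rw [mem_colGroup]
    exact hf1
  · ext a
    exact (hf2 a).symm

omit [DecidableEq Ω] in
theorem sum_comp_perm (w : Ω → ℕ) (g : Perm Ω) : ∑ a, (w ∘ ⇑g) a = ∑ a, w a :=
  Equiv.sum_comp g w

theorem IsColTab.kappa_single {row col w : Ω → ℕ} (h : IsColTab row col)
    (hs : ∑ a, w a ≤ ∑ a, row a) (z : ℂ) :
    kappa (wordRep Ω) col (Finsupp.single w z) =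
      kappa (wordRep Ω) col (Finsupp.single w z) row • polytabloid row col := by
  by_cases hw : ∀ a b, col a = col b → w a = w b → a = b
  · obtain ⟨c, hc, rfl⟩ := h.exists_of_sum_le hw hs
    have h1 : kappa (wordRep Ω) col (Finsupp.single (row ∘ ⇑c) z) =
        (z * ((Perm.sign c : ℤ) : ℂ)) • polytabloid row col := by
      rw [mul_smul, ← polytabloid_comp_of_mem hc, polytabloid_eq_kappa, ← map_smul]
      simp
    rw [h1, Finsupp.smul_apply, polytabloid_apply_row h.inj, smul_eq_mul, mul_one]
  · push Not at hw
    obtain ⟨a, b, h1, h2, h3⟩ := hw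
    rw [kappa_single_eq_zero h3 h1 h2]
    simp

/-- James's lemma. -/
theorem IsColTab.kappa_eq_smul {row col : Ω → ℕ} (h : IsColTab row col) (x : Wd Ω)
    (hx : ∀ w, x w ≠ 0 → ∑ a, w a ≤ ∑ a, row a) :
    kappa (wordRep Ω) col x = kappa (wordRep Ω) col x row • polytabloid row col := by
  have h1 : kappa (wordRep Ω) col x =
      ∑ w ∈ x.support, kappa (wordRep Ω) col (Finsupp.single w (x w)) := by
    rw [← map_sum]
    congr 1
    exact (Finsupp.sum_single x).symm
  rw [h1, Finsupp.finsetSum_apply, Finset.sum_smul]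
  refine Finset.sum_congr rfl fun w hw => ?_
  exact h.kappa_single (hx w (Finsupp.mem_support_iff.1 hw)) _

/-- Two column tableaux with the same columns have the same polytabloid up to sign. -/
theorem IsColTab.polytabloid_eq_or {row row' col col' : Ω → ℕ} (h : IsColTab row col)
    (h' : IsColTab row' col') (hc : ∀ a b, col a = col b ↔ col' a = col' b) :
    polytabloid row' col' = polytabloid row col ∨ polytabloid row' col' = -polytabloid row col := by
  have h1 : ∀ a b, col a = col b → row' a = row' b → a = b := fun a b hab =>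
    h'.inj a b ((hc a b).1 hab)
  have h2 : ∀ a b, col' a = col' b → row a = row b → a = b := fun a b hab =>
    h.inj a b ((hc a b).2 hab)
  obtain ⟨c, hc', rfl⟩ := h.exists_of_sum_le h1 (h'.sum_le h2)
  rw [← polytabloid_congr hc, polytabloid_comp_of_mem hc']
  rcases sign_cast_eq c with h3 | h3 <;> simp [h3]

end Vale.Agent.P197
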