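import Vale.Agent.P197.James

namespace Vale.Agent.P197

open Equiv

/-- The trilinear pairing of three polytabloids attached to a weight `lam` on triples of letters. -/
def theta (lam : ℕ → ℕ → ℕ → ℤ) {A : Type} [Fintype A] [DecidableEq A]
    (r c r' c' row col : A → ℕ) : ℤ :=
  ∑ s ∈ colGroup c, ∑ s' ∈ colGroup c', ∑ d ∈ colGroup col,
    (Perm.sign s : ℤ) * (Perm.sign s' : ℤ) * (Perm.sign d : ℤ) *
      ∏ a, lam (r (s a)) (r' (s' a)) (row (d a))

section helpers

/-- columns of a disjoint union -/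
def thCol {A B : Type} (c : A → ℕ) (d : B → ℕ) : A ⊕ B → ℕ :=
  Sum.elim (fun a => 2 * c a) (fun b => 2 * d b + 1)

theorem th_sum_colGroup {A B : Type} [Fintype A] [DecidableEq A] [Fintype B] [DecidableEq B]
    (c : A → ℕ) (d : B → ℕ) (F : Perm (A ⊕ B) → ℤ) :
    ∑ s ∈ colGroup (thCol c d), F s
      = ∑ s ∈ colGroup c, ∑ t ∈ colGroup d, F (Perm.sumCongr s t) := by
  rw [← Finset.sum_product']
  symm
  refine Finset.sum_nbij (fun p => Perm.sumCongr p.1 p.2) ?_ ?_ ?_ (fun _ _ => rfl)
  · rintro ⟨s, t⟩ h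
    rw [Finset.mem_product, mem_colGroup, mem_colGroup] at h
    rw [mem_colGroup]
    rintro (a | b)
    · simp [thCol, h.1 a]
    · simp [thCol, h.2 b]
  · intro p _ q _ h
    exact Perm.sumCongrHom_injective h
  · intro s hs
    have hs' := mem_colGroup.1 (Finset.mem_coe.1 hs)
    have h1 : Set.MapsTo s (Set.range Sum.inl) (Set.range Sum.inl) := by
      rintro _ ⟨a, rfl⟩
      have := hs' (Sum.inl a)
      rcases h : s (Sum.inl a) with a' | b'
      · exact ⟨a', rfl⟩
      · rw [h] at this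
        simp only [thCol, Sum.elim_inl, Sum.elim_inr] at this
        omega
    obtain ⟨⟨s1, s2⟩, rfl⟩ := Perm.mem_sumCongrHom_range_of_perm_mapsTo_inl h1
    refine ⟨(s1, s2), ?_, rfl⟩
    rw [Finset.mem_coe, Finset.mem_product, mem_colGroup, mem_colGroup]
    constructor
    · intro a
      have := hs' (Sum.inl a)
      simpa [thCol] using this
    · intro b
      have := hs' (Sum.inr b)
      simpa [thCol] using this

theorem th_mul (lam : ℕ → ℕ → ℕ → ℤ) {A B : Type} [Fintype A] [DecidableEq A] [Fintype B]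
    [DecidableEq B] (r c r' c' row col : A → ℕ) (s d s' d' sow dol : B → ℕ) :
    theta lam (Sum.elim r s) (thCol c d) (Sum.elim r' s') (thCol c' d') (Sum.elim row sow)
      (thCol col dol) = theta lam r c r' c' row col * theta lam s d s' d' sow dol := by
  unfold theta
  simp only [th_sum_colGroup, Finset.sum_mul_sum]
  refine Finset.sum_congr rfl fun _ _ => Finset.sum_congr rfl fun _ _ =>
    Finset.sum_congr rfl fun _ _ => Finset.sum_congr rfl fun _ _ =>
    Finset.sum_congr rfl fun _ _ => Finset.sum_congr rfl fun _ _ => ?_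
  simp only [Perm.sign_sumCongr, Units.val_mul, Fintype.prod_sum_type, Perm.sumCongr_apply,
    Sum.map_inl, Sum.map_inr, Sum.elim_inl, Sum.elim_inr]
  ring

theorem th_sum_comp {A B : Type} [Fintype A] [DecidableEq A] [Fintype B] [DecidableEq B]
    (e : A ≃ B) (c : B → ℕ) (F : Perm A → ℤ) :
    ∑ s ∈ colGroup (c ∘ e), F s = ∑ s ∈ colGroup c, F (e.symm.permCongr s) := by
  symm
  refine Finset.sum_equiv e.symm.permCongr (fun s => ?_) (fun _ _ => rfl)
  rw [mem_colGroup, mem_colGroup]
  constructor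
  · intro h a
    simp [h]
  · intro h b
    simpa using h (e.symm b)

theorem th_comp (lam : ℕ → ℕ → ℕ → ℤ) {A B : Type} [Fintype A] [DecidableEq A] [Fintype B]
    [DecidableEq B] (e : A ≃ B) (r c r' c' row col : B → ℕ) :
    theta lam (r ∘ e) (c ∘ e) (r' ∘ e) (c' ∘ e) (row ∘ e) (col ∘ e)
      = theta lam r c r' c' row col := by
  unfold theta
  simp only [th_sum_comp]
  refine Finset.sum_congr rfl fun s _ => Finset.sum_congr rfl fun s' _ =>
    Finset.sum_congr rfl fun d _ => ?_
  simp only [Perm.sign_permCongr]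
  congr 1
  rw [← Equiv.prod_comp e]
  simp

theorem IsColTab.th_sum {A B : Type} {r c : A → ℕ} {s d : B → ℕ} (h : IsColTab r c)
    (h' : IsColTab s d) : IsColTab (Sum.elim r s) (thCol c d) where
  inj := by
    rintro (a | a) (b | b) h1 h2 <;> simp only [thCol, Sum.elim_inl, Sum.elim_inr] at h1 h2
    · rw [h.inj a b (by omega) h2]
    · omega
    · omega
    · rw [h'.inj a b (by omega) h2]
  down := by
    rintro (a | a) i hi
    · obtain ⟨b, h1, h2⟩ := h.down a i hi
      exact ⟨Sum.inl b, by simp [thCol, h1], h2⟩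
    · obtain ⟨b, h1, h2⟩ := h'.down a i hi
      exact ⟨Sum.inr b, by simp [thCol, h1], h2⟩

/-- all columns have height two -/
structure ThEven {A : Type} (row col : A → ℕ) : Prop where
  tab : IsColTab row col
  lt_two : ∀ a, row a < 2
  pair : ∀ z, ∃ b, col b = col z ∧ b ≠ z

theorem TwoRow.th_sum {A B : Type} {r c : A → ℕ} {s d : B → ℕ} (h : TwoRow r c)
    (h' : ThEven s d) : TwoRow (Sum.elim r s) (thCol c d) where
  tab := h.tab.th_sum h'.tab
  lt_two := by
    rintro (a | a)
    · exact h.lt_two a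
    · exact h'.lt_two a
  single := by
    obtain ⟨z, hz, huniq⟩ := h.single
    refine ⟨Sum.inl z, ?_, ?_⟩
    · rintro (b | b) hb <;> simp only [thCol, Sum.elim_inl, Sum.elim_inr] at hb
      · rw [hz b (by omega)]
      · omega
    · rintro (y | y) hy
      · rw [huniq y (fun b hb => Sum.inl_injective (hy (Sum.inl b) (by simp [thCol, hb])))]
      · obtain ⟨b, h1, h2⟩ := h'.pair y
        exact absurd (Sum.inr_injective (hy (Sum.inr b) (by simp [thCol, h1]))) h2

/-- the weight -/
def thLam (i j k : ℕ) : ℤ :=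
  if (i = 0 ∧ j = 0 ∧ k = 0) ∨ (i = 0 ∧ j = 1 ∧ k = 2) ∨ (i = 1 ∧ j = 0 ∧ k = 1) ∨
    (i = 1 ∧ j = 1 ∧ k = 0) ∨ (i = 1 ∧ j = 1 ∧ k = 1) then 1 else 0

/-- an odd model with prescribed row lengths -/
def ThQ (n0 n1 n2 : ℕ) : Prop :=
  ∃ (B : Type) (_ : Fintype B) (_ : DecidableEq B) (row col r c r' c' : B → ℕ),
    (∀ a, row a < 3) ∧ (Finset.univ.filter fun a => row a = 0).card = n0 ∧
    (Finset.univ.filter fun a => row a = 1).card = n1 ∧
    (Finset.univ.filter fun a => row a = 2).card = n2 ∧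
    IsColTab row col ∧ TwoRow r c ∧ TwoRow r' c' ∧ theta thLam r c r' c' row col ≠ 0

/-- an even model with prescribed row lengths -/
def ThE (n0 n1 n2 : ℕ) : Prop :=
  ∃ (B : Type) (_ : Fintype B) (_ : DecidableEq B) (row col r c r' c' : B → ℕ),
    (∀ a, row a < 3) ∧ (Finset.univ.filter fun a => row a = 0).card = n0 ∧
    (Finset.univ.filter fun a => row a = 1).card = n1 ∧
    (Finset.univ.filter fun a => row a = 2).card = n2 ∧
    IsColTab row col ∧ ThEven r c ∧ ThEven r' c' ∧ theta thLam r c r' c' row col ≠ 0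

theorem th_card_sum {A B : Type} [Fintype A] [Fintype B] (r : A → ℕ) (s : B → ℕ) (k : ℕ) :
    (Finset.univ.filter fun a => Sum.elim r s a = k).card
      = (Finset.univ.filter fun a => r a = k).card + (Finset.univ.filter fun a => s a = k).card := by
  simp only [Finset.card_filter, Fintype.sum_sum_type, Sum.elim_inl, Sum.elim_inr]
  congr!

theorem ThQ.add {n0 n1 n2 m0 m1 m2 : ℕ} (h : ThQ n0 n1 n2) (h' : ThE m0 m1 m2) :
    ThQ (n0 + m0) (n1 + m1) (n2 + m2) := by
  obtain ⟨A, _, _, row, col, r, c, r', c', a1, a2, a3, a4, a5, a6, a7, a8⟩ := h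
  obtain ⟨B, _, _, sow, dol, s, d, s', d', b1, b2, b3, b4, b5, b6, b7, b8⟩ := h'
  refine ⟨A ⊕ B, inferInstance, inferInstance, Sum.elim row sow, thCol col dol, Sum.elim r s,
    thCol c d, Sum.elim r' s', thCol c' d', ?_, ?_, ?_, ?_, a5.th_sum b5, a6.th_sum b6,
    a7.th_sum b7, ?_⟩
  · rintro (a | a)
    · exact a1 a
    · exact b1 a
  · rw [th_card_sum, a2, b2]
  · rw [th_card_sum, a3, b3]
  · rw [th_card_sum, a4, b4]
  · rw [th_mul]
    exact mul_ne_zero a8 b8

theorem th_tab {n : ℕ} {r c : Fin n → ℕ} (h1 : ∀ a b, c a = c b → r a = r b → a = b)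
    (h2 : ∀ a, ∀ i < r a, ∃ b, c b = c a ∧ r b = i) : IsColTab r c := ⟨h1, h2⟩

theorem th_two {n : ℕ} {r c : Fin n → ℕ} (h1 : ∀ a b, c a = c b → r a = r b → a = b)
    (h2 : ∀ a, ∀ i < r a, ∃ b, c b = c a ∧ r b = i) (h3 : ∀ a, r a < 2)
    (h4 : ∃ z, (∀ b, c b = c z → b = z) ∧ ∀ y, (∀ b, c b = c y → b = y) → y = z) : TwoRow r c :=
  ⟨⟨h1, h2⟩, h3, h4⟩

theorem thE200 : ThE 2 0 0 :=
  ⟨Fin 2, inferInstance, inferInstance, ![0, 0], ![0, 1], ![0, 1], ![0, 0], ![0, 1], ![0, 0],
    by decide, by decide, by decide, by decide, th_tab (by decide) (by decide),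
    ⟨th_tab (by decide) (by decide), by decide, by decide⟩,
    ⟨th_tab (by decide) (by decide), by decide, by decide⟩, by decide +kernel⟩

theorem thE220 : ThE 2 2 0 :=
  ⟨Fin 4, inferInstance, inferInstance, ![0, 0, 1, 1], ![0, 1, 0, 1], ![0, 1, 0, 1],
    ![0, 0, 1, 1], ![0, 1, 0, 1], ![0, 0, 1, 1],
    by decide, by decide, by decide, by decide, th_tab (by decide) (by decide),
    ⟨th_tab (by decide) (by decide), by decide, by decide⟩,
    ⟨th_tab (by decide) (by decide), by decide, by decide⟩, by decide +kernel⟩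

theorem thE222 : ThE 2 2 2 :=
  ⟨Fin 6, inferInstance, inferInstance, ![0, 0, 1, 1, 2, 2], ![0, 1, 0, 1, 0, 1],
    ![0, 1, 0, 1, 0, 1], ![0, 0, 1, 1, 2, 2], ![0, 1, 0, 1, 0, 1], ![0, 0, 1, 1, 2, 2],
    by decide, by decide, by decide, by decide, th_tab (by decide) (by decide),
    ⟨th_tab (by decide) (by decide), by decide, by decide⟩,
    ⟨th_tab (by decide) (by decide), by decide, by decide⟩, by decide +kernel⟩

theorem thQ100 : ThQ 1 0 0 :=
  ⟨Fin 1, inferInstance, inferInstance, ![0], ![0], ![0], ![0], ![0], ![0],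
    by decide, by decide, by decide, by decide, th_tab (by decide) (by decide),
    th_two (by decide) (by decide) (by decide) (by decide),
    th_two (by decide) (by decide) (by decide) (by decide), by decide +kernel⟩

theorem thQ210 : ThQ 2 1 0 :=
  ⟨Fin 3, inferInstance, inferInstance, ![0, 0, 1], ![0, 1, 0], ![0, 1, 0], ![0, 0, 1],
    ![0, 1, 0], ![0, 0, 1],
    by decide, by decide, by decide, by decide, th_tab (by decide) (by decide),
    th_two (by decide) (by decide) (by decide) (by decide),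
    th_two (by decide) (by decide) (by decide) (by decide), by decide +kernel⟩

theorem thQ221 : ThQ 2 2 1 :=
  ⟨Fin 5, inferInstance, inferInstance, ![0, 0, 1, 1, 2], ![0, 1, 0, 1, 0], ![0, 1, 0, 1, 0],
    ![0, 0, 1, 1, 2], ![0, 1, 0, 1, 0], ![0, 0, 1, 1, 2],
    by decide, by decide, by decide, by decide, th_tab (by decide) (by decide),
    th_two (by decide) (by decide) (by decide) (by decide),
    th_two (by decide) (by decide) (by decide) (by decide), by decide +kernel⟩

theorem thQ111 : ThQ 1 1 1 :=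
  ⟨Fin 3, inferInstance, inferInstance, ![0, 1, 2], ![0, 0, 0], ![0, 1, 0], ![0, 0, 1],
    ![0, 0, 1], ![0, 1, 1],
    by decide, by decide, by decide, by decide, th_tab (by decide) (by decide),
    th_two (by decide) (by decide) (by decide) (by decide),
    th_two (by decide) (by decide) (by decide) (by decide), by decide +kernel⟩

theorem thQ_all (N : ℕ) : ∀ n0 n1 n2, n0 + n1 + n2 = N → Odd N → n1 ≤ n0 → n2 ≤ n1 →
    ThQ n0 n1 n2 := by
  induction N using Nat.strong_induction_on with
  | _ N ih =>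
    intro n0 n1 n2 hN hodd h1 h2
    rw [Nat.odd_iff] at hodd
    by_cases c1 : 2 ≤ n2
    · have := (ih (N - 6) (by omega) (n0 - 2) (n1 - 2) (n2 - 2) (by omega)
        (Nat.odd_iff.2 (by omega)) (by omega) (by omega)).add thE222
      rwa [show n0 - 2 + 2 = n0 by omega, show n1 - 2 + 2 = n1 by omega,
        show n2 - 2 + 2 = n2 by omega] at this
    by_cases c2 : n2 + 2 ≤ n1
    · have := (ih (N - 4) (by omega) (n0 - 2) (n1 - 2) n2 (by omega)
        (Nat.odd_iff.2 (by omega)) (by omega) (by omega)).add thE220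
      rwa [show n0 - 2 + 2 = n0 by omega, show n1 - 2 + 2 = n1 by omega, add_zero] at this
    by_cases c3 : n1 + 2 ≤ n0
    · have := (ih (N - 2) (by omega) (n0 - 2) n1 n2 (by omega)
        (Nat.odd_iff.2 (by omega)) (by omega) (by omega)).add thE200
      rwa [show n0 - 2 + 2 = n0 by omega, add_zero, add_zero] at this
    have : (n0 = 1 ∧ n1 = 0 ∧ n2 = 0) ∨ (n0 = 2 ∧ n1 = 1 ∧ n2 = 0) ∨ (n0 = 2 ∧ n1 = 2 ∧ n2 = 1) ∨
        (n0 = 1 ∧ n1 = 1 ∧ n2 = 1) := by omega
    rcases this with ⟨rfl, rfl, rfl⟩ | ⟨rfl, rfl, rfl⟩ | ⟨rfl, rfl, rfl⟩ | ⟨rfl, rfl, rfl⟩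
    · exact thQ100
    · exact thQ210
    · exact thQ221
    · exact thQ111

end helpers

/-- Every shape with at most three rows and odd size pairs nontrivially with a pair of two-row
polytabloids. -/
theorem exists_theta_ne_zero : ∃ lam : ℕ → ℕ → ℕ → ℤ,
    ∀ (A : Type) [Fintype A] [DecidableEq A] (row : A → ℕ), (∀ a, row a < 3) →
      Odd (Fintype.card A) →
      (Finset.univ.filter fun a => row a = 1).card ≤ (Finset.univ.filter fun a => row a = 0).card →
      (Finset.univ.filter fun a => row a = 2).card ≤ (Finset.univ.filter fun a => row a = 1).card →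
      ∃ col r c r' c' : A → ℕ, IsColTab row col ∧ TwoRow r c ∧ TwoRow r' c' ∧
        theta lam r c r' c' row col ≠ 0 := by
  refine ⟨thLam, fun A _ _ row hrow hodd h1 h2 => ?_⟩
  have hcard : (Finset.univ.filter fun a => row a = 0).card
      + (Finset.univ.filter fun a => row a = 1).card
      + (Finset.univ.filter fun a => row a = 2).card = Fintype.card A := by
    simp only [Finset.card_filter, ← Finset.sum_add_distrib]
    rw [← Finset.card_univ, Finset.card_eq_sum_ones]
    refine Finset.sum_congr rfl fun a _ => ?_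
    have := hrow a
    split_ifs <;> omega
  obtain ⟨B, _, _, sow, dol, s, d, s', d', b1, b2, b3, b4, b5, b6, b7, b8⟩ :=
    thQ_all _ _ _ _ hcard hodd h1 h2
  have hfib : ∀ k, Fintype.card {a // row a = k} = Fintype.card {b // sow b = k} := by
    intro k
    rw [Fintype.card_subtype, Fintype.card_subtype]
    by_cases hk : k < 3
    · interval_cases k
      · exact b2.symm
      · exact b3.symm
      · exact b4.symm
    · rw [Finset.filter_eq_empty_iff.2, Finset.filter_eq_empty_iff.2, Finset.card_empty,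
        Finset.card_empty]
      · intro b _ hb
        have := b1 b
        omega
      · intro a _ ha
        have := hrow a
        omega
  let e : A ≃ B := Equiv.ofFiberEquiv fun k => Fintype.equivOfCardEq (hfib k)
  have he : sow ∘ e = row := by
    ext a
    exact Equiv.ofFiberEquiv_map _ a
  refine ⟨dol ∘ e, s ∘ e, d ∘ e, s' ∘ e, d' ∘ e, ?_, b6.comp e, b7.comp e, ?_⟩
  · rw [← he]
    exact b5.comp e
  · rw [← he, th_comp]
    exact b8

end Vale.Agent.P197
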