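import Vale.Agent.P197.Classify
import Vale.Agent.P197.ThetaCore

namespace Vale.Agent.P197

open Equiv

universe u

variable {A : Type} [Fintype A] [DecidableEq A] {V : Type u} [AddCommGroup V] [Module ℂ V]

theorem polytabloid_eq_sum' (row col : A → ℕ) :
    polytabloid row col =
      ∑ c ∈ colGroup col, ((Perm.sign c : ℤ) : ℂ) • Finsupp.single (row ∘ ⇑c) (1 : ℂ) := by
  rw [polytabloid_eq_sum]
  refine Finset.sum_nbij' (fun c => c⁻¹) (fun c => c⁻¹) ?_ ?_ ?_ ?_ ?_
  · exact fun c hc => inv_mem_colGroup hc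
  · exact fun c hc => inv_mem_colGroup hc
  · exact fun c _ => inv_inv c
  · exact fun c _ => inv_inv c
  · intro c _
    rw [Perm.sign_inv]

/-- The vector attached to a pair of words by the weight `lam`. -/
noncomputable def dvec (lam : ℕ → ℕ → ℕ → ℤ) (w w' : A → ℕ) : Wd A :=
  ∑ v ∈ Fintype.piFinset fun _ : A => Finset.range 3,
    Finsupp.single v ((∏ a, lam (w a) (w' a) (v a) : ℤ) : ℂ)

theorem dvec_apply (lam : ℕ → ℕ → ℕ → ℤ) (w w' v : A → ℕ) : dvec lam w w' v =
    if ∀ a, v a < 3 then ((∏ a, lam (w a) (w' a) (v a) : ℤ) : ℂ) else 0 := by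
  classical
  rw [dvec, Finsupp.finsetSum_apply]
  simp_rw [Finsupp.single_apply]
  rw [Finset.sum_ite_eq']
  simp only [Fintype.mem_piFinset, Finset.mem_range]

/-- The bilinear map attached to the weight `lam`. -/
noncomputable def dmap (lam : ℕ → ℕ → ℕ → ℤ) : Wd A →ₗ[ℂ] Wd A →ₗ[ℂ] Wd A :=
  Finsupp.linearCombination ℂ fun w => Finsupp.linearCombination ℂ fun w' => dvec lam w w'

theorem dmap_single (lam : ℕ → ℕ → ℕ → ℤ) (w w' : A → ℕ) (z z' : ℂ) :
    dmap lam (Finsupp.single w z) (Finsupp.single w' z') = z • z' • dvec lam w w' := by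
  rw [dmap, Finsupp.linearCombination_single, LinearMap.smul_apply,
    Finsupp.linearCombination_single]

theorem dmap_equivar (lam : ℕ → ℕ → ℕ → ℤ) : Equivar (wordRep A) (dmap lam) := by
  intro g x y
  induction x using Finsupp.induction_linear with
  | zero => simp
  | add x x' hx hx' => simp only [map_add, LinearMap.add_apply, hx, hx']
  | single w z =>
    induction y using Finsupp.induction_linear with
    | zero => simp
    | add y y' hy hy' => simp only [map_add, hy, hy']
    | single w' z' =>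
      rw [wordRep_single, wordRep_single, dmap_single, dmap_single, map_smul, map_smul]
      congr 2
      ext v
      rw [wordRep_apply, dvec_apply, dvec_apply]
      have h1 : (∀ a, v a < 3) ↔ ∀ a, (v ∘ ⇑g) a < 3 :=
        ⟨fun h a => h _, fun h a => by simpa using h (g⁻¹ a)⟩
      have h2 : ∏ a, lam ((w ∘ ⇑g⁻¹) a) ((w' ∘ ⇑g⁻¹) a) (v a) =
          ∏ a, lam (w a) (w' a) ((v ∘ ⇑g) a) := by
        rw [← Equiv.prod_comp g]
        simp
      simp only [h1, h2]

theorem kappa_dmap (lam : ℕ → ℕ → ℕ → ℤ) (r c r' c' row col : A → ℕ) (h3 : ∀ a, row a < 3) :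
    kappa (wordRep A) col (dmap lam (polytabloid r c) (polytabloid r' c')) row =
      (theta lam r c r' c' row col : ℂ) := by
  rw [kappa_wordRep_apply, polytabloid_eq_sum' r c, polytabloid_eq_sum' r' c', theta]
  simp only [map_sum, LinearMap.sum_apply, map_smul, LinearMap.smul_apply, dmap_single, one_smul,
    Finsupp.finsetSum_apply, Finsupp.smul_apply, smul_eq_mul, dvec_apply, Finset.mul_sum,
    Function.comp_apply, h3, implies_true, if_true]
  push_cast
  rw [Finset.sum_comm, Finset.sum_comm (s := colGroup c)]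
  refine Finset.sum_congr rfl fun s' _ => ?_
  rw [Finset.sum_comm]
  refine Finset.sum_congr rfl fun s _ => Finset.sum_congr rfl fun d _ => ?_
  ring

theorem ext_kappa {ρ : Representation ℂ (Perm A) V} {row col : A → ℕ} (h : IsColTab row col)
    (F : Wd A →ₗ[ℂ] V) (hF : ∀ g x, F (wordRep A g x) = ρ g (F x))
    (hF0 : ∀ w, (¬ ∃ g : Perm A, w = row ∘ ⇑g) → F (Finsupp.single w 1) = 0) (x : Wd A) :
    kappa ρ col (F x) = kappa (wordRep A) col x row • F (polytabloid row col) := by
  classical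
  induction x using Finsupp.induction_linear with
  | zero => simp
  | add x x' hx hx' => simp only [map_add, Finsupp.add_apply, add_smul, hx, hx']
  | single w z =>
    by_cases hw : ∃ g : Perm A, w = row ∘ ⇑g
    · obtain ⟨g, rfl⟩ := hw
      rw [kappa_apply, ← map_kappa F hF, ← map_smul, ← h.kappa_single (sum_comp_perm row g).le]
    · have h1 : F (Finsupp.single w z) = 0 := by
        rw [← mul_one z, ← smul_eq_mul, ← Finsupp.smul_single, map_smul, hF0 w hw, smul_zero]
      rw [h1, map_zero, kappa_wordRep_apply, Finset.sum_eq_zero, zero_smul]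
      intro c _
      rw [Finsupp.single_apply, if_neg (fun hh => hw ⟨c, hh⟩), mul_zero]

theorem kappa_eq_zero_of_tall {ρ : Representation ℂ (Perm A) V} {row col w₁ : A → ℕ}
    (h : IsColTab row col) {a : A} (ha : 3 ≤ row a) (hw : ∀ a, w₁ a < 3) {u : V}
    (hu : ∀ g : Perm A, w₁ ∘ ⇑g = w₁ → ρ g u = u) {z : V} (hz : z ∈ (cyc ρ u).toSubmodule) :
    kappa ρ col z = 0 := by
  have hb : ∀ i : Fin 4, ∃ b, col b = col a ∧ row b = i := by
    intro i
    rcases (show (i : ℕ) ≤ row a by omega).lt_or_eq with h1 | h1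
    · exact h.down a i h1
    · exact ⟨a, rfl, h1.symm⟩
  choose b hb1 hb2 using hb
  refine Submodule.span_induction (p := fun z _ => kappa ρ col z = 0) ?_ ?_ ?_ ?_ hz
  · rintro _ ⟨g, rfl⟩
    obtain ⟨x, y, hxy, he⟩ := Fintype.exists_ne_map_eq_of_card_lt
      (fun i : Fin 4 => (⟨w₁ (g⁻¹ (b i)), hw _⟩ : Fin 3)) (by simp)
    have he' : w₁ (g⁻¹ (b x)) = w₁ (g⁻¹ (b y)) := congrArg Fin.val he
    have hne : b x ≠ b y := by
      intro hh
      apply hxy
      apply Fin.ext
      rw [← hb2 x, ← hb2 y, hh]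
    refine kappa_eq_zero_of_swap ρ hne ((hb1 x).trans (hb1 y).symm) ?_
    have h1 : swap (b x) (b y) * g = g * swap (g⁻¹ (b x)) (g⁻¹ (b y)) := by
      rw [Equiv.mul_swap_eq_swap_mul]
      simp
    rw [← Module.End.mul_apply, ← map_mul, h1, map_mul, Module.End.mul_apply, hu]
    ext t
    simp only [Function.comp_apply, swap_apply_def]
    split_ifs with h2 h3
    · rw [h2, he']
    · rw [h3, he']
    · rfl
  · simp
  · intro x y _ _ h1 h2
    rw [map_add, h1, h2, add_zero]
  · intro z x _ h1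
    rw [map_smul, h1, smul_zero]

/-- A representation with a vector fixed by a Young subgroup with three blocks receives a nonzero
map from the tensor square of the two-row Specht module. -/
theorem exists_beta (ρ : Representation ℂ (Perm A) V) (hodd : Odd (Fintype.card A))
    (w₁ : A → ℕ) (hw : ∀ a, w₁ a < 3) (u : V) (hu0 : u ≠ 0)
    (hu : ∀ g : Perm A, w₁ ∘ ⇑g = w₁ → ρ g u = u) :
    ∃ β : Wd A →ₗ[ℂ] Wd A →ₗ[ℂ] V, Equivar ρ β ∧ ∃ r c r' c', TwoRow r c ∧ TwoRow r' c' ∧
      β (polytabloid r c) (polytabloid r' c') ≠ 0 := by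
  obtain ⟨lam, hlam⟩ := exists_theta_ne_zero
  obtain ⟨Y, t, hY⟩ := exists_family A
  have hcol : ∀ P, ∃ col, IsColTab (fun a => (t P a).1.1) col ∧
      ((∀ a, (t P a).1.1 < 3) → ∃ r c r' c' : A → ℕ, TwoRow r c ∧ TwoRow r' c' ∧
        theta lam r c r' c' (fun a => (t P a).1.1) col ≠ 0) := by
    intro P
    by_cases h3 : ∀ a, (t P a).1.1 < 3
    · obtain ⟨col, r, c, r', c', h1, h2, h2', h4⟩ := hlam A (fun a => (t P a).1.1) h3 hodd
        (by rw [card_row_eq, card_row_eq]; exact (Y P).rowLen_anti _ _ (by norm_num))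
        (by rw [card_row_eq, card_row_eq]; exact (Y P).rowLen_anti _ _ (by norm_num))
      exact ⟨col, h1, fun _ => ⟨r, c, r', c', h2, h2', h4⟩⟩
    · exact ⟨_, isColTab_of_tableau (t P), fun h => absurd h h3⟩
  choose col hcol1 hcol2 using hcol
  obtain ⟨P, y, hy1, hy2⟩ := exists_kappa_ne_zero (fun P a => (t P a).1.1) col hcol1 hY
    (cyc ρ u).toRepresentation ⟨u, self_mem_cyc ρ u⟩ (fun h => hu0 (congrArg Subtype.val h))
  have hy3 : kappa ρ (col P) y ≠ 0 := by
    rw [← kappa_subrep]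
    exact fun h => hy2 (Subtype.ext h)
  have h3 : ∀ a, (t P a).1.1 < 3 := by
    intro a
    by_contra ha
    exact hy3 (kappa_eq_zero_of_tall (hcol1 P) (not_lt.1 ha) hw hu y.2)
  obtain ⟨r, c, r', c', h1, h2, h4⟩ := hcol2 P h3
  obtain ⟨F, hF, hF1, hF0⟩ := exists_ext ρ (fun a => (t P a).1.1) (y : V)
    (fun g hg => congrArg Subtype.val (hy1 g hg))
  refine ⟨(dmap lam).compr₂ F, fun g x y => ?_, r, c, r', c', h1, h2, fun h0 => ?_⟩
  · rw [LinearMap.compr₂_apply, LinearMap.compr₂_apply, dmap_equivar, hF]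
  · have h5 := ext_kappa (hcol1 P) F hF hF0 (dmap lam (polytabloid r c) (polytabloid r' c'))
    rw [LinearMap.compr₂_apply] at h0
    rw [h0, map_zero, kappa_dmap _ _ _ _ _ _ _ h3, polytabloid_eq_kappa, map_kappa F hF, hF1,
      ← kappa_apply] at h5
    rcases smul_eq_zero.1 h5.symm with h6 | h6
    · exact h4 (by exact_mod_cast h6)
    · exact hy3 h6

end Vale.Agent.P197
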