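import Vale.Agent.P197.Step
import Vale.Agent.P197.Link

namespace Vale.Agent.P197

open Equiv

universe u

section

variable {Ω : Type} [Fintype Ω] [DecidableEq Ω] {V : Type u} [AddCommGroup V] [Module ℂ V]

theorem Hyp.base {m : ℕ} (hm : m ≤ 1) {i j k : Ω → ℕ} (hs : Stair m i j k)
    (ρ : Representation ℂ (Perm Ω) V) (v : V) (hv : v ≠ 0) : Hyp ρ m i j k := by
  have hsub : ∀ g : Perm Ω, g = 1 := by
    intro g
    ext a
    have h1 := hs.sum a
    have h2 := hs.sum (g a)
    exact hs.inj _ _ (by simp only [Perm.coe_one, id]; omega)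
      (by simp only [Perm.coe_one, id]; omega)
  let B : Wd Ω →ₗ[ℂ] Wd Ω →ₗ[ℂ] V :=
    (Finsupp.lapply (0 : Ω → ℕ) : Wd Ω →ₗ[ℂ] ℂ).smulRight
      ((Finsupp.lapply (0 : Ω → ℕ) : Wd Ω →ₗ[ℂ] ℂ).smulRight v)
  have hB : ∀ r c r' c', IsStairTab m r c → IsStairTab m r' c' →
      B (polytabloid r c) (polytabloid r' c') = v := by
    have h0 : ∀ r c : Ω → ℕ, IsStairTab m r c → polytabloid r c 0 = 1 := by
      intro r c h
      have : r = 0 := funext fun a => by
        have := h.lt a
        simp only [Pi.zero_apply]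
        omega
      have h1 := polytabloid_apply_row h.inj
      rwa [this] at h1 ⊢
    intro r c r' c' h h'
    simp [B, h0 r c h, h0 r' c' h']
  refine ⟨B, Submodule.span ℤ {v}, ?_, ?_, ?_, ?_, ?_, ?_⟩
  · intro g x y
    rw [hsub g]
    simp
  · exact Submodule.fg_span_singleton v
  · rwa [Ne, Submodule.span_singleton_eq_bot]
  · intro g x hx
    rw [hsub g]
    simpa using hx
  · intro r c r' c' h h'
    rw [hB r c r' c' h h']
    exact Submodule.mem_span_singleton_self v
  · intro x hx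
    refine ⟨x, ?_, 0, Submodule.zero_mem _, by simp⟩
    rw [hB _ _ _ _ hs.rot.rot.tab hs.swap.rot.rot.tab]
    refine Submodule.span_mono ?_ hx
    rintro _ rfl
    exact ⟨1, by simp⟩

theorem Hyp.of_fixed {m : ℕ} {i j k : Ω → ℕ} (hs : Stair (m + 2) i j k)
    (ρ : Representation ℂ (Perm Ω) V)
    (IH : ∀ (V' : Type u) [AddCommGroup V'] [Module ℂ V']
      (ρ' : Representation ℂ (Perm {a // ¬ i a < 2}) V') (v : V'), v ≠ 0 →
      Hyp ρ' m (fun a => i a - 2) (fun a => j a) (fun a => k a))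
    (w₀ : Ω → ℕ) (hw : 2 * m + 3 ≤ (Finset.univ.filter fun a => w₀ a < 3).card)
    (u : V) (hu0 : u ≠ 0) (hu : ∀ g : Perm Ω, w₀ ∘ ⇑g = w₀ → ρ g u = u) :
    Hyp ρ (m + 2) i j k := by
  have hcard : Fintype.card {a // i a < 2} ≤ Fintype.card {a // w₀ a < 3} := by
    rw [hs.card_top, Fintype.card_subtype]
    omega
  obtain ⟨f⟩ := Function.Embedding.nonempty_of_card_le hcard
  obtain ⟨g, hg⟩ := Equiv.Perm.exists_extending_pair (f := (Subtype.val : {a // i a < 2} → Ω))
    (g := fun a => (f a).1) Subtype.val_injective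
    (fun a b h => f.injective (Subtype.ext h))
  obtain ⟨β, hβ, r, c, r', c', h1, h2, h3⟩ := exists_beta (A := {a // i a < 2})
    (ρ.comp Perm.ofSubtype) (by rw [hs.card_top]; exact odd_two_mul_add_one _)
    (fun a => w₀ (g a)) (fun a => by rw [hg]; exact (f a).2) (ρ g⁻¹ u)
    (fun h => hu0 (by simpa using congrArg (ρ g) h)) (by
      intro s hs'
      change ρ (Perm.ofSubtype s) (ρ g⁻¹ u) = ρ g⁻¹ u
      have h4 : ρ (g * Perm.ofSubtype s * g⁻¹) u = u := by
        apply hu
        ext a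
        obtain ⟨b, rfl⟩ := g.surjective a
        simp only [Function.comp_apply, Perm.mul_apply, Perm.inv_def, symm_apply_apply]
        by_cases hb : i b < 2
        · rw [Perm.ofSubtype_apply_of_mem s hb]
          exact congrFun hs' ⟨b, hb⟩
        · rw [Perm.ofSubtype_apply_of_not_mem s hb]
      conv_rhs => rw [← h4]
      rw [← Module.End.mul_apply, ← Module.End.mul_apply, ← map_mul, ← map_mul]
      congr 2
      group)
  exact Hyp.step hs ρ IH β hβ h1 h2 h3

omit [DecidableEq Ω] in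
theorem card_filter_tableau {μ : YoungDiagram} (t : Ω ≃ μ.cells) (q : ℕ × ℕ → Prop)
    [DecidablePred q] :
    (Finset.univ.filter fun a => q (t a).1).card = (μ.cells.filter q).card := by
  refine Finset.card_bij (fun a _ => (t a).1) ?_ ?_ ?_
  · intro a ha
    exact Finset.mem_filter.2 ⟨(t a).2, (Finset.mem_filter.1 ha).2⟩
  · intro a _ b _ h
    exact t.injective (Subtype.ext h)
  · intro c hc
    rw [Finset.mem_filter] at hc
    exact ⟨t.symm ⟨c, hc.1⟩, by simp [hc.2], by simp⟩

end

theorem hyp_all (m : ℕ) : ∀ (Ω : Type) [Fintype Ω] [DecidableEq Ω] (i j k : Ω → ℕ),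
    Stair m i j k → ∀ (V : Type u) [AddCommGroup V] [Module ℂ V]
      (ρ : Representation ℂ (Perm Ω) V) (v : V), v ≠ 0 → Hyp ρ m i j k := by
  induction m using Nat.twoStepInduction with
  | zero => exact fun Ω _ _ i j k hs V _ _ ρ v hv => Hyp.base (by norm_num) hs ρ v hv
  | one => exact fun Ω _ _ i j k hs V _ _ ρ v hv => Hyp.base le_rfl hs ρ v hv
  | more m ih _ =>
    intro Ω _ _ i j k hs V _ _ ρ v hv
    have IH := ih _ _ _ _ hs.bot
    obtain ⟨Y, t, hY⟩ := exists_family Ω
    obtain ⟨P, u, hu1, hu2⟩ := exists_kappa_ne_zero (fun P a => (t P a).1.1)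
      (fun P a => (t P a).1.2) (fun P => isColTab_of_tableau (t P)) hY ρ v hv
    have hcard : 2 * (Y P).card = (m + 2) * (m + 3) := by
      rw [← hs.card, Fintype.card_congr (t P), Fintype.card_coe]
    rcases three_rows_or_cols m (Y P) hcard with h | h
    · refine Hyp.of_fixed hs ρ IH (fun a => (t P a).1.1) ?_ u ?_ hu1
      · rwa [card_filter_tableau (t P) (fun c => c.1 < 3)]
      · rintro rfl
        exact hu2 (map_zero _)
    · refine Hyp.of_signTwist hs (Hyp.of_fixed hs (signTwist ρ) IH (fun a => (t P a).1.2) ?_ _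
        hu2 fun g hg => ?_)
      · rwa [card_filter_tableau (t P) (fun c => c.2 < 3)]
      · rw [signTwist_apply, rep_kappa_of_mem ρ (mem_colGroup.2 fun a => congrFun hg a),
          smul_smul, sign_mul_self, one_smul]

section

variable {Ω : Type} [Fintype Ω] [DecidableEq Ω] {V : Type u} [AddCommGroup V] [Module ℂ V]

theorem Hyp.ne_zero {ρ : Representation ℂ (Perm Ω) V} {m : ℕ} {i j k : Ω → ℕ}
    (h : Hyp ρ m i j k) : ∃ B : Wd Ω →ₗ[ℂ] Wd Ω →ₗ[ℂ] V, Equivar ρ B ∧
      B (polytabloid i j) (polytabloid i k) ≠ 0 := by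
  obtain ⟨B, Γ, hB, hfg, hne, -, -, hgen⟩ := h
  refine ⟨B, hB, fun h0 => hne ?_⟩
  have hle : Γ ≤ (Ideal.span {(2 : ℤ)}) • Γ := by
    intro x hx
    obtain ⟨y, hy, z, hz, rfl⟩ := hgen x hx
    rw [h0] at hy
    have hy0 : y = 0 := by simpa [orbitSpan] using hy
    rw [hy0, zero_add, ← natCast_zsmul]
    exact Submodule.smul_mem_smul (Ideal.mem_span_singleton_self _) hz
  obtain ⟨r, hr1, hr2⟩ :=
    Submodule.exists_sub_one_mem_and_smul_eq_zero_of_fg_of_le_smul _ Γ hfg hle
  have hr0 : (r : ℂ) ≠ 0 := by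
    rw [Ideal.mem_span_singleton] at hr1
    have : r ≠ 0 := by omega
    exact_mod_cast this
  rw [Submodule.eq_bot_iff]
  intro x hx
  have := hr2 x hx
  rw [← Int.cast_smul_eq_zsmul ℂ] at this
  exact (smul_eq_zero.1 this).resolve_left hr0

theorem mem_staircase {m : ℕ} {c : ℕ × ℕ} : c ∈ (staircase m).cells ↔ c.1 + c.2 < m := by
  simp only [staircase, Finset.mem_filter, Finset.mem_product, Finset.mem_range]
  omega

theorem IsStairTab.mem_specht {m : ℕ} {r c : Ω → ℕ} (h : IsStairTab m r c) :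
    polytabloid r c ∈ (specht Ω (staircase m)).toSubmodule := by
  let f : Ω → (staircase m).cells := fun a => ⟨(r a, c a), mem_staircase.2 (h.lt a)⟩
  have hf : Function.Bijective f := by
    constructor
    · intro a b hab
      have := congrArg Subtype.val hab
      exact h.inj a b (congrArg Prod.snd this) (congrArg Prod.fst this)
    · rintro ⟨⟨x, y⟩, hxy⟩
      obtain ⟨a, h1, h2⟩ := h.surj x y (mem_staircase.1 hxy)
      exact ⟨a, Subtype.ext (Prod.ext h1 h2)⟩
  exact Submodule.subset_span ⟨Equiv.ofBijective f hf, rfl⟩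

omit [Fintype Ω] [DecidableEq Ω] in
theorem stair_of_tableau {m : ℕ} (t : Ω ≃ (staircase m).cells) :
    Stair m (fun a => m - 1 - (t a).1.1 - (t a).1.2) (fun a => (t a).1.1) (fun a => (t a).1.2) where
  sum a := by
    have := mem_staircase.1 (t a).2
    omega
  inj a b h1 h2 := t.injective (Subtype.ext (Prod.ext h1 h2))
  surj x y hxy := ⟨t.symm ⟨(x, y), mem_staircase.2 hxy⟩, by simp, by simp⟩

theorem card_staircase (m : ℕ) : (staircase m).card = m * (m + 1) / 2 := by
  have := (stair_of_tableau (Equiv.refl (staircase m).cells)).card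
  rw [Fintype.card_coe] at this
  change (staircase m).cells.card = _
  omega

instance finite_specht (μ : YoungDiagram) : FiniteDimensional ℂ (specht Ω μ).toSubmodule :=
  FiniteDimensional.span_of_finite ℂ (Set.finite_range _)

theorem finrank_pos_of_lift {G : Type} [Group G] [Fintype G] {W : Type} [AddCommGroup W]
    [Module ℂ W] [FiniteDimensional ℂ W] [FiniteDimensional ℂ V] (σ : Representation ℂ G W)
    (ρ : Representation ℂ G V) (B : W →ₗ[ℂ] W →ₗ[ℂ] V)
    (hB : ∀ g x y, B (σ g x) (σ g y) = ρ g (B x y)) (x y : W) (h : B x y ≠ 0) :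
    0 < Module.finrank ℂ (Representation.IntertwiningMap ρ (σ.tprod σ)) := by
  rw [finrank_intertwining_comm ρ (σ.tprod σ)]
  refine finrank_intertwining_pos (σ.tprod σ) ρ ⟨TensorProduct.lift B, fun g => ?_⟩ fun h0 => h ?_
  · refine TensorProduct.ext' fun a b => ?_
    simp [hB]
  · exact congrArg (fun f : Representation.IntertwiningMap (σ.tprod σ) ρ => f (x ⊗ₜ y)) h0

end

open CategoryTheory MonoidalCategory

theorem finrank_hom_pos {G : Type} [Group G] [Fintype G] (S X : Rep ℂ G)
    [FiniteDimensional ℂ S.V] [FiniteDimensional ℂ X.V] (B : S.V →ₗ[ℂ] S.V →ₗ[ℂ] X.V)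
    (hB : ∀ g x y, B (S.ρ g x) (S.ρ g y) = X.ρ g (B x y)) (x y : S.V) (h : B x y ≠ 0) :
    0 < Module.finrank ℂ (X ⟶ S ⊗ S) := by
  rw [(Rep.homLinearEquiv X (S ⊗ S)).finrank_eq]
  exact finrank_pos_of_lift S.ρ X.ρ B hB x y h

instance finite_spechtRep (n : ℕ) (μ : YoungDiagram) : FiniteDimensional ℂ (spechtRep n μ).V :=
  finite_specht μ

/-- Every nonzero finite-dimensional representation maps nontrivially to the tensor square of the
staircase Specht module. -/
theorem saxl_general (m : ℕ) (X : Rep ℂ (Perm (Fin (m * (m + 1) / 2)))) [FiniteDimensional ℂ X.V]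
    (v : X.V) (hv : v ≠ 0) :
    0 < Module.finrank ℂ (X ⟶ spechtRep (m * (m + 1) / 2) (staircase m) ⊗
      spechtRep (m * (m + 1) / 2) (staircase m)) := by
  have t : Fin (m * (m + 1) / 2) ≃ (staircase m).cells :=
    Fintype.equivOfCardEq (by rw [Fintype.card_fin, Fintype.card_coe, ← card_staircase])
  have hs := stair_of_tableau t
  obtain ⟨B, hB, h0⟩ := (hyp_all m _ _ _ _ hs X.V X.ρ v hv).ne_zero
  exact finrank_hom_pos (spechtRep (m * (m + 1) / 2) (staircase m)) X
    (B.compl₁₂ (specht _ (staircase m)).toSubmodule.subtype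
      (specht _ (staircase m)).toSubmodule.subtype) (fun g x y => hB g x.1 y.1)
    ⟨_, hs.rot.rot.tab.mem_specht⟩ ⟨_, hs.swap.rot.rot.tab.mem_specht⟩ h0

theorem saxl (m : ℕ) (ν : YoungDiagram) (hν : ν.card = m * (m + 1) / 2) :
    0 < kronecker (m * (m + 1) / 2) (staircase m) (staircase m) ν := by
  have t : Fin (m * (m + 1) / 2) ≃ ν.cells :=
    Fintype.equivOfCardEq (by rw [Fintype.card_fin, Fintype.card_coe, ← hν])
  exact saxl_general m (spechtRep _ ν) ⟨_, Submodule.subset_span ⟨t, rfl⟩⟩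
    (fun h => polytabloid_ne_zero (isColTab_of_tableau t).inj (congrArg Subtype.val h))

theorem exists_ne_zero_of_irreducible {G : Type} [Group G] {V : Type} [AddCommGroup V]
    [Module ℂ V] (ρ : Representation ℂ G V) [ρ.IsIrreducible] : ∃ v : V, v ≠ 0 := by
  by_contra hcon
  push Not at hcon
  apply bot_ne_top (α := Subrepresentation ρ)
  apply Subrepresentation.toSubmodule_injective
  ext x
  rw [hcon x]
  simp

theorem finite_of_irreducible {G : Type} [Group G] [Finite G] {V : Type} [AddCommGroup V]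
    [Module ℂ V] (ρ : Representation ℂ G V) [ρ.IsIrreducible] : FiniteDimensional ℂ V := by
  obtain ⟨v, hv⟩ := exists_ne_zero_of_irreducible ρ
  rcases eq_bot_or_eq_top (cyc ρ v) with h | h
  · have := self_mem_cyc ρ v
    rw [h] at this
    exact absurd this hv
  · have h1 : (cyc ρ v).toSubmodule = ⊤ := by
      rw [h]
      rfl
    have h2 := finite_cyc ρ v
    rw [h1] at h2
    exact Module.Finite.equiv (Submodule.topEquiv (R := ℂ) (M := V))

theorem exists_injective_of_finrank_pos {G : Type} [Group G] (X Y : Rep ℂ G)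
    (hX : X.ρ.IsIrreducible) (h : 0 < Module.finrank ℂ (X ⟶ Y)) :
    ∃ f : X ⟶ Y, Function.Injective f.hom := by
  by_contra hcon
  have : Subsingleton (X ⟶ Y) :=
    subsingleton_of_forall_eq 0 fun f => Rep.hom_ext
      ((Representation.IsIrreducible.injective_or_eq_zero f.hom).resolve_left
        fun hf => hcon ⟨f, hf⟩)
  exact h.ne' Module.finrank_zero_of_subsingleton

theorem saxl_irreducible (m : ℕ) (X : Rep ℂ (Perm (Fin (m * (m + 1) / 2))))
    (hX : X.ρ.IsIrreducible) :
    ∃ f : X ⟶ spechtRep (m * (m + 1) / 2) (staircase m) ⊗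
      spechtRep (m * (m + 1) / 2) (staircase m), Function.Injective f.hom := by
  obtain ⟨v, hv⟩ := exists_ne_zero_of_irreducible X.ρ
  have := finite_of_irreducible X.ρ
  exact exists_injective_of_finrank_pos X _ hX (saxl_general m X v hv)

end Vale.Agent.P197
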