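import Vale.Agent.P197.James

namespace Vale.Agent.P197

open Equiv

universe u

section helpers

variable {A : Type}

theorem TwoRow.path_two {r c : A → ℕ} (h : TwoRow r c) {a b d : A} (hb : c b = c a)
    (hd : c d = c a) (hab : b ≠ a) (had : d ≠ a) : b = d := by
  have h1 : r b ≠ r a := fun hh => hab (h.tab.inj _ _ hb hh)
  have h2 : r d ≠ r a := fun hh => had (h.tab.inj _ _ hd hh)
  have := h.lt_two a
  have := h.lt_two b
  have := h.lt_two d
  exact h.tab.inj _ _ (hb.trans hd.symm) (by omega)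

theorem TwoRow.path_single {r c : A → ℕ} (h : TwoRow r c) {a b : A}
    (ha : ∀ d, c d = c a → d = a) (hb : ∀ d, c d = c b → d = b) : a = b :=
  h.single.unique ha hb

theorem IsPath.path_c {r c c' : A → ℕ} (h : TwoRow r c) {l : ℕ} {x : ℕ → A}
    (hx : IsPath l c c' x) {s : ℕ} (hs : s ≤ 2 * l) {b : A} (hb : c b = c (x s)) :
    ∃ t, t ≤ 2 * l ∧ b = x t ∧ (t + 1) / 2 = (s + 1) / 2 := by
  by_cases hbs : b = x s
  · exact ⟨s, hs, hbs, rfl⟩
  rcases Nat.eq_zero_or_pos s with rfl | hs0
  · exact absurd (hx.start b hb) hbs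
  rcases Nat.even_or_odd' s with ⟨i, rfl | rfl⟩
  · obtain ⟨j, rfl⟩ : ∃ j, i = j + 1 := ⟨i - 1, by omega⟩
    have h1 := hx.even j (by omega)
    have h2 : x (2 * j + 1) ≠ x (2 * (j + 1)) := fun hh => by
      have := hx.inj _ _ (by omega) (by omega) hh
      omega
    exact ⟨2 * j + 1, by omega, h.path_two hb h1 hbs h2, by omega⟩
  · have h1 := hx.even i (by omega)
    have h2 : x (2 * i + 2) ≠ x (2 * i + 1) := fun hh => by
      have := hx.inj _ _ (by omega) (by omega) hh
      omega
    exact ⟨2 * i + 2, by omega, h.path_two hb h1.symm hbs h2, by omega⟩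

theorem IsPath.path_c' {r' c c' : A → ℕ} (h : TwoRow r' c') {l : ℕ} {x : ℕ → A}
    (hx : IsPath l c c' x) {s : ℕ} (hs : s < 2 * l) {b : A} (hb : c' b = c' (x s)) :
    ∃ t, t < 2 * l ∧ b = x t ∧ t / 2 = s / 2 := by
  by_cases hbs : b = x s
  · exact ⟨s, hs, hbs, rfl⟩
  rcases Nat.even_or_odd' s with ⟨i, rfl | rfl⟩
  · have h1 := hx.odd i (by omega)
    have h2 : x (2 * i + 1) ≠ x (2 * i) := fun hh => by
      have := hx.inj _ _ (by omega) (by omega) hh
      omega
    exact ⟨2 * i + 1, by omega, h.path_two hb h1.symm hbs h2, by omega⟩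
  · have h1 := hx.odd i (by omega)
    have h2 : x (2 * i) ≠ x (2 * i + 1) := fun hh => by
      have := hx.inj _ _ (by omega) (by omega) hh
      omega
    exact ⟨2 * i, by omega, h.path_two hb h1 hbs h2, by omega⟩

theorem IsPath.path_c_iff {r c c' : A → ℕ} (h : TwoRow r c) {l : ℕ} {x : ℕ → A}
    (hx : IsPath l c c' x) {s t : ℕ} (hs : s ≤ 2 * l) (ht : t ≤ 2 * l) :
    c (x s) = c (x t) ↔ (s + 1) / 2 = (t + 1) / 2 := by
  constructor
  · intro hh
    obtain ⟨t', h1, h2, h3⟩ := hx.path_c h ht hh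
    rw [hx.inj _ _ hs h1 h2, h3]
  · intro hh
    by_cases hst : s = t
    · rw [hst]
    rcases Nat.even_or_odd' s with ⟨i, rfl | rfl⟩
    · obtain ⟨j, rfl⟩ : ∃ j, i = j + 1 := ⟨i - 1, by omega⟩
      obtain rfl : t = 2 * j + 1 := by omega
      exact (hx.even j (by omega)).symm
    · obtain rfl : t = 2 * i + 2 := by omega
      exact hx.even i (by omega)

theorem IsPath.path_c'_iff {r' c c' : A → ℕ} (h : TwoRow r' c') {l : ℕ} {x : ℕ → A}
    (hx : IsPath l c c' x) {s t : ℕ} (hs : s ≤ 2 * l) (ht : t ≤ 2 * l) :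
    c' (x s) = c' (x t) ↔ s / 2 = t / 2 := by
  constructor
  · intro hh
    rcases lt_or_eq_of_le ht with ht' | ht'
    · obtain ⟨t', h1, h2, h3⟩ := hx.path_c' h ht' hh
      rw [hx.inj _ _ hs h1.le h2, h3]
    · rcases lt_or_eq_of_le hs with hs' | hs'
      · obtain ⟨t', h1, h2, h3⟩ := hx.path_c' h hs' hh.symm
        rw [hx.inj _ _ ht h1.le h2, h3]
      · rw [hs', ht']
  · intro hh
    by_cases hst : s = t
    · rw [hst]
    rcases Nat.even_or_odd' s with ⟨i, rfl | rfl⟩
    · obtain rfl : t = 2 * i + 1 := by omega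
      exact hx.odd i (by omega)
    · obtain rfl : t = 2 * i := by omega
      exact (hx.odd i (by omega)).symm

theorem IsPath.path_extend {r c r' c' : A → ℕ} (h : TwoRow r c) (h' : TwoRow r' c') {l : ℕ}
    {x : ℕ → A} (hx : IsPath l c c' x) {p : A} (hp : c' p = c' (x (2 * l)))
    (hpy : p ≠ x (2 * l)) : ∃ x', IsPath (l + 1) c c' x' := by
  have hp1 : ∀ s, s ≤ 2 * l → p ≠ x s := by
    intro s hs hh
    rcases lt_or_eq_of_le hs with hs' | hs'
    · obtain ⟨t, h1, h2, -⟩ := hx.path_c' h' hs' (b := x (2 * l)) (by rw [← hp, hh])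
      have := hx.inj _ _ le_rfl h1.le h2
      omega
    · exact hpy (by rw [hh, hs'])
  obtain ⟨q, hq, hqp⟩ : ∃ q, c q = c p ∧ q ≠ p := by
    by_contra hne
    push Not at hne
    exact hp1 0 (by omega) (h.path_single hne hx.start)
  have hq1 : ∀ s, s ≤ 2 * l → q ≠ x s := by
    intro s hs hh
    obtain ⟨t, h1, h2, -⟩ := hx.path_c h hs (b := p) (by rw [← hq, hh])
    exact hp1 t h1 h2
  refine ⟨fun s => if s = 2 * l + 1 then p else if s = 2 * l + 2 then q else x s, ?_, ?_, ?_, ?_⟩
  · have h1 : (0 : ℕ) ≠ 2 * l + 1 := by omega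
    have h2 : (0 : ℕ) ≠ 2 * l + 2 := by omega
    simp only [if_neg h1, if_neg h2]
    exact hx.start
  · intro i hi
    rcases lt_or_eq_of_le (Nat.lt_succ_iff.mp hi) with hi' | rfl
    · rw [if_neg (by omega), if_neg (by omega), if_neg (by omega), if_neg (by omega)]
      exact hx.odd i hi'
    · rw [if_neg (by omega), if_neg (by omega), if_pos rfl]
      exact hp.symm
  · intro i hi
    rcases lt_or_eq_of_le (Nat.lt_succ_iff.mp hi) with hi' | rfl
    · rw [if_neg (by omega), if_neg (by omega), if_neg (by omega), if_neg (by omega)]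
      exact hx.even i hi'
    · rw [if_pos rfl, if_neg (by omega), if_pos rfl]
      exact hq.symm
  · intro s t hs ht hst
    split_ifs at hst with h1 h2 h3 h4 h5 h6 h7 h8
    · omega
    · exact absurd hst.symm hqp
    · exact absurd hst (hp1 t (by omega))
    · exact absurd hst hqp
    · omega
    · exact absurd hst (hq1 t (by omega))
    · exact absurd hst.symm (hp1 s (by omega))
    · exact absurd hst.symm (hq1 s (by omega))
    · exact hx.inj s t (by omega) (by omega) hst

variable [Fintype A] [DecidableEq A]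

theorem path_garnir {r c : A → ℕ} (h : TwoRow r c) {y p q : A} (hpq : c q = c p) (h1 : q ≠ p)
    (h2 : p ≠ y) (h3 : q ≠ y) :
    polytabloid r c = wordRep A (swap y p) (polytabloid r c)
      + wordRep A (swap y q) (polytabloid r c) := by
  have hs : swap p q ∈ colGroup c := by
    rw [mem_colGroup]
    intro a
    rw [swap_apply_def]
    split_ifs with h4 h5
    · rw [h4, hpq]
    · rw [h5, hpq]
    · rfl
  have hneg : ∀ w : A → ℕ, polytabloid r c (w ∘ ⇑(swap p q)) = -polytabloid r c w := by
    intro w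
    rw [← wordRep_apply, wordRep_polytabloid_of_mem hs, Perm.sign_swap h1.symm]
    simp
  have hzero : ∀ w : A → ℕ, w p = w q → polytabloid r c w = 0 := by
    intro w hw
    have h4 : w ∘ ⇑(swap p q) = w := by
      ext a
      simp only [Function.comp, swap_apply_def]
      split_ifs with h5 h6
      · rw [h5, hw]
      · rw [h6, hw]
      · rfl
    have h5 := hneg w
    rw [h4] at h5
    linear_combination (1 / 2 : ℂ) * h5
  have hbig : ∀ (w : A → ℕ) (a : A), 2 ≤ w a → polytabloid r c w = 0 := by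
    intro w a ha
    by_contra hne
    obtain ⟨d, -, rfl⟩ := exists_of_polytabloid_apply_ne_zero hne
    have := h.lt_two (d a)
    simp only [Function.comp] at ha
    omega
  ext w
  rw [Finsupp.add_apply, wordRep_apply, wordRep_apply]
  by_cases hw : ∃ a, 2 ≤ w a
  · obtain ⟨a, ha⟩ := hw
    rw [hbig w a ha, hbig _ (swap y p a) (by simpa using ha),
      hbig _ (swap y q a) (by simpa using ha), add_zero]
  push Not at hw
  have hy := hw y
  have hp := hw p
  have hq := hw q
  by_cases e1 : w p = w q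
  · have h4 : (w ∘ ⇑(swap y p)) ∘ ⇑(swap p q) = w ∘ ⇑(swap y q) := by
      ext a
      simp only [Function.comp, swap_apply_def]
      split_ifs <;> simp_all
    rw [hzero w e1, ← h4, hneg, add_neg_cancel]
  by_cases e2 : w y = w p
  · have h4 : w ∘ ⇑(swap y p) = w := by
      ext a
      simp only [Function.comp, swap_apply_def]
      split_ifs <;> simp_all
    rw [h4, hzero (w ∘ ⇑(swap y q)), add_zero]
    simp only [Function.comp, swap_apply_right, swap_apply_of_ne_of_ne h2 h1.symm, e2]
  · have e3 : w y = w q := by omega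
    have h4 : w ∘ ⇑(swap y q) = w := by
      ext a
      simp only [Function.comp, swap_apply_def]
      split_ifs <;> simp_all
    rw [h4, hzero (w ∘ ⇑(swap y p)), zero_add]
    simp only [Function.comp, swap_apply_right, swap_apply_of_ne_of_ne h3 h1, e3]

omit [Fintype A] in
theorem IsPath.path_swap {c c' : A → ℕ} {l : ℕ} {x : ℕ → A} (hx : IsPath l c c' x) {p : A}
    (hp : ∀ s, s ≤ 2 * l → p ≠ x s) : IsPath l c (c' ∘ ⇑(swap (x (2 * l)) p)⁻¹) x := by
  have key : ∀ s, s < 2 * l → (c' ∘ ⇑(swap (x (2 * l)) p)⁻¹) (x s) = c' (x s) := by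
    intro s hs
    have h1 : x s ≠ x (2 * l) := fun hh => by
      have := hx.inj _ _ hs.le le_rfl hh
      omega
    simp only [Function.comp, swap_inv, swap_apply_of_ne_of_ne h1 (hp s hs.le).symm]
  refine ⟨hx.start, fun i hi => ?_, hx.even, hx.inj⟩
  rw [key _ (by omega), key _ (by omega)]
  exact hx.odd i hi

end helpers

/-- The pair of two-row polytabloids whose matchings form a Hamiltonian path generates, over the
integers, all pairs of two-row polytabloids. -/
theorem path_generates {A : Type} [Fintype A] [DecidableEq A] {V : Type u} [AddCommGroup V]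
    [Module ℂ V] (ρ : Representation ℂ (Perm A) V) (β : Wd A →ₗ[ℂ] Wd A →ₗ[ℂ] V)
    (hβ : Equivar ρ β) (n : ℕ) (hcard : Fintype.card A = 2 * n + 1)
    {r₀ c₀ r₀' c₀' : A → ℕ} (h₀ : TwoRow r₀ c₀) (h₀' : TwoRow r₀' c₀') {x₀ : ℕ → A}
    (hx₀ : IsPath n c₀ c₀' x₀) {r c r' c' : A → ℕ} (h : TwoRow r c) (h' : TwoRow r' c') :
    β (polytabloid r c) (polytabloid r' c') ∈
      orbitSpan ρ (β (polytabloid r₀ c₀) (polytabloid r₀' c₀')) := by
  have hbij : ∀ {d d' : A → ℕ} {x : ℕ → A}, IsPath n d d' x →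
      Function.Bijective (fun s : Fin (2 * n + 1) => x s) := by
    intro d d' x hx
    rw [Fintype.bijective_iff_injective_and_card]
    refine ⟨fun s t hst => Fin.ext (hx.inj _ _ (by omega) (by omega) hst), by simp [hcard]⟩
  have main : ∀ k l, l + k = n → ∀ (r c r' c' : A → ℕ) (x : ℕ → A), TwoRow r c → TwoRow r' c' →
      IsPath l c c' x → β (polytabloid r c) (polytabloid r' c') ∈
        orbitSpan ρ (β (polytabloid r₀ c₀) (polytabloid r₀' c₀')) := by
    intro k
    induction k with
    | zero =>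
      intro l hl r c r' c' x h h' hx
      obtain rfl : l = n := by omega
      set e := Equiv.ofBijective _ (hbij hx) with he
      set e₀ := Equiv.ofBijective _ (hbij hx₀) with he₀
      set g : Perm A := e₀.symm.trans e with hg
      have hg1 : ∀ s : Fin (2 * l + 1), g⁻¹ (x s) = x₀ s := by
        intro s
        rw [Perm.inv_eq_iff_eq]
        show e s = e (e₀.symm (e₀ s))
        rw [symm_apply_apply]
      have hc : ∀ a b, (c₀ ∘ ⇑g⁻¹) a = (c₀ ∘ ⇑g⁻¹) b ↔ c a = c b := by
        intro a b
        obtain ⟨s, rfl⟩ := (hbij hx).2 a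
        obtain ⟨t, rfl⟩ := (hbij hx).2 b
        simp only [Function.comp, hg1]
        rw [hx₀.path_c_iff h₀ (by omega) (by omega), hx.path_c_iff h (by omega) (by omega)]
      have hc' : ∀ a b, (c₀' ∘ ⇑g⁻¹) a = (c₀' ∘ ⇑g⁻¹) b ↔ c' a = c' b := by
        intro a b
        obtain ⟨s, rfl⟩ := (hbij hx).2 a
        obtain ⟨t, rfl⟩ := (hbij hx).2 b
        simp only [Function.comp, hg1]
        rw [hx₀.path_c'_iff h₀' (by omega) (by omega), hx.path_c'_iff h' (by omega) (by omega)]
      have h1 := (h₀.tab.comp g⁻¹).polytabloid_eq_or h.tab hc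
      have h2 := (h₀'.tab.comp g⁻¹).polytabloid_eq_or h'.tab hc'
      rw [← wordRep_polytabloid] at h1 h2
      have h3 : β (wordRep A g (polytabloid r₀ c₀)) (wordRep A g (polytabloid r₀' c₀')) ∈
          orbitSpan ρ (β (polytabloid r₀ c₀) (polytabloid r₀' c₀')) := by
        rw [hβ]
        exact Submodule.subset_span ⟨g, rfl⟩
      rcases h1 with h1 | h1 <;> rcases h2 with h2 | h2 <;> rw [h1, h2]
      · exact h3
      · simpa using h3
      · simpa using h3
      · simpa using h3
    | succ k ih =>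
      intro l hl r c r' c' x h h' hx
      have step : ∀ r' c' : A → ℕ, TwoRow r' c' → IsPath l c c' x →
          (∃ p, c' p = c' (x (2 * l)) ∧ p ≠ x (2 * l)) → β (polytabloid r c) (polytabloid r' c') ∈
            orbitSpan ρ (β (polytabloid r₀ c₀) (polytabloid r₀' c₀')) := by
        rintro r' c' h' hx ⟨p, hp, hpy⟩
        obtain ⟨x', hx'⟩ := hx.path_extend h h' hp hpy
        exact ih (l + 1) (by omega) r c r' c' x' h h' hx'
      by_cases hy : ∃ p, c' p = c' (x (2 * l)) ∧ p ≠ x (2 * l)
      · exact step r' c' h' hx hy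
      push Not at hy
      obtain ⟨p, hp⟩ : ∃ p, ∀ s, s ≤ 2 * l → p ≠ x s := by
        by_contra hne
        push Not at hne
        have hsurj : Function.Surjective (fun s : Fin (2 * l + 1) => x s) := by
          intro a
          obtain ⟨s, hs, rfl⟩ := hne a
          exact ⟨⟨s, by omega⟩, rfl⟩
        have := Fintype.card_le_of_surjective _ hsurj
        simp only [Fintype.card_fin] at this
        omega
      obtain ⟨q, hq, hqp⟩ : ∃ q, c' q = c' p ∧ q ≠ p := by
        by_contra hne
        push Not at hne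
        exact hp _ le_rfl (h'.path_single hne hy)
      have hq1 : ∀ s, s ≤ 2 * l → q ≠ x s := by
        intro s hs hh
        rcases lt_or_eq_of_le hs with hs' | hs'
        · obtain ⟨t, h1, h2, -⟩ := hx.path_c' h' hs' (b := p) (by rw [← hq, hh])
          exact hp t h1.le h2
        · exact hp _ le_rfl (hy p (by rw [← hq, hh, hs']))
      rw [path_garnir h' hq hqp (hp _ le_rfl) (hq1 _ le_rfl), map_add, wordRep_polytabloid,
        wordRep_polytabloid]
      apply Submodule.add_mem
      · apply step _ _ (h'.comp _) (hx.path_swap hp)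
        refine ⟨q, ?_, hq1 _ le_rfl⟩
        simp only [Function.comp, swap_inv, swap_apply_left,
          swap_apply_of_ne_of_ne (hq1 _ le_rfl) hqp, hq]
      · apply step _ _ (h'.comp _) (hx.path_swap hq1)
        refine ⟨p, ?_, hp _ le_rfl⟩
        simp only [Function.comp, swap_inv, swap_apply_left,
          swap_apply_of_ne_of_ne (hp _ le_rfl) hqp.symm, hq]
  obtain ⟨z, hz, -⟩ := h.single
  refine main n 0 (by omega) r c r' c' (fun _ => z) h h' ⟨hz, ?_, ?_, ?_⟩
  · intro l hl; omega
  · intro l hl; omega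
  · intro s t hs ht _; omega

end Vale.Agent.P197
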