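import Vale.Agent.P197.Count

namespace Vale.Agent.P197

open Equiv

universe u

variable {Ω : Type} [Fintype Ω] [DecidableEq Ω] {V : Type u} [AddCommGroup V] [Module ℂ V]

theorem sign_smul_mem {Γ : Submodule ℤ V} (g : Perm Ω) {x : V} (hx : x ∈ Γ) :
    ((Perm.sign g : ℤ) : ℂ) • x ∈ Γ := by
  rcases sign_cast_eq g with h | h <;> simp [h, hx]

theorem sign_smul_mem_iff {Γ : Submodule ℤ V} (g : Perm Ω) {x : V} :
    ((Perm.sign g : ℤ) : ℂ) • x ∈ Γ ↔ x ∈ Γ := by
  rcases sign_cast_eq g with h | h <;> simp [h]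

theorem orbitSpan_signTwist (ρ : Representation ℂ (Perm Ω) V) (v : V) :
    orbitSpan (signTwist ρ) v = orbitSpan ρ v := by
  apply le_antisymm
  · rw [orbitSpan, Submodule.span_le]
    rintro _ ⟨g, rfl⟩
    exact sign_smul_mem g (Submodule.subset_span ⟨g, rfl⟩)
  · rw [orbitSpan, Submodule.span_le]
    rintro _ ⟨g, rfl⟩
    exact (sign_smul_mem_iff g).1 (Submodule.subset_span ⟨g, rfl⟩)

omit [Fintype Ω] [DecidableEq Ω] in
theorem rep_mem_orbitSpan (ρ : Representation ℂ (Perm Ω) V) (v : V) (g : Perm Ω) :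
    ρ g v ∈ orbitSpan ρ v := Submodule.subset_span ⟨g, rfl⟩

omit [Fintype Ω] [DecidableEq Ω] in
/-- If `v ≡ ± v'` modulo `2 Γ`, the orbit spans agree modulo `2 Γ`. -/
theorem orbitSpan_mod_two (ρ : Representation ℂ (Perm Ω) V) {Γ : Submodule ℤ V}
    (hΓ : ∀ g, ∀ x ∈ Γ, ρ g x ∈ Γ) {v v' z₀ : V} (hz₀ : z₀ ∈ Γ)
    (h : v = v' + 2 • z₀ ∨ v = -v' + 2 • z₀) {y : V} (hy : y ∈ orbitSpan ρ v) :
    ∃ y' ∈ orbitSpan ρ v', ∃ z ∈ Γ, y = y' + 2 • z := by
  refine Submodule.span_induction (fun x hx => ?_) ?_ (fun x y _ _ hx hy => ?_)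
    (fun a x _ hx => ?_) hy
  · obtain ⟨g, rfl⟩ := hx
    rcases h with h | h
    · exact ⟨ρ g v', rep_mem_orbitSpan ρ v' g, ρ g z₀, hΓ g _ hz₀, by simp [h]⟩
    · exact ⟨-ρ g v', Submodule.neg_mem _ (rep_mem_orbitSpan ρ v' g), ρ g z₀, hΓ g _ hz₀,
        by simp [h]⟩
  · exact ⟨0, Submodule.zero_mem _, 0, Submodule.zero_mem _, by simp⟩
  · obtain ⟨x1, h1, x2, h2, rfl⟩ := hx
    obtain ⟨y1, h3, y2, h4, rfl⟩ := hy
    exact ⟨x1 + y1, Submodule.add_mem _ h1 h3, x2 + y2, Submodule.add_mem _ h2 h4, by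
      rw [smul_add]; abel⟩
  · obtain ⟨x1, h1, x2, h2, rfl⟩ := hx
    exact ⟨a • x1, Submodule.smul_mem _ _ h1, a • x2, Submodule.smul_mem _ _ h2, by
      rw [smul_add, smul_comm]⟩

theorem Stair.kappa_polytabloid {m : ℕ} {i j k : Ω → ℕ} (h : Stair m i j k) :
    kappa (wordRep Ω) k (polytabloid j i) = polytabloid j k := by
  classical
  have htab : IsColTab j k := h.tab.isColTab
  have hji : IsColTab j i := h.rot.rot.swap.tab.isColTab
  rw [htab.kappa_eq_smul]
  · rw [kappa_wordRep_apply, Finset.sum_eq_single (1 : Perm Ω)]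
    · simp [polytabloid_apply_row hji.inj]
    · intro c hc hne
      by_contra hh
      obtain ⟨d, hd, he⟩ := exists_of_polytabloid_apply_ne_zero (right_ne_zero_of_mul hh)
      exact hne (h.unique_word hd hc he.symm).2
    · intro hh
      exact absurd (one_mem_colGroup k) hh
  · intro w hw
    obtain ⟨d, _, rfl⟩ := exists_of_polytabloid_apply_ne_zero hw
    exact (sum_comp_perm j d).le

theorem Hyp.of_signTwist {ρ : Representation ℂ (Perm Ω) V} {m : ℕ} {i j k : Ω → ℕ}
    (hs : Stair m i j k) (h : Hyp (signTwist ρ) m i j k) : Hyp ρ m i j k := by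
  classical
  obtain ⟨B, Γ, hB, hfg, hne, hst, hmem, hgen⟩ := h
  have hji : IsStairTab m j i := hs.rot.rot.swap.tab
  have hij : IsStairTab m i j := hs.rot.rot.tab
  have hik : IsStairTab m i k := hs.swap.rot.rot.tab
  have hst' : ∀ g, ∀ x ∈ Γ, ρ g x ∈ Γ := fun g x hx => (sign_smul_mem_iff g).1 (hst g x hx)
  obtain ⟨ψ, hψ, hψ0, hψ1⟩ := exists_ext (signTwist (wordRep Ω)) i (polytabloid j i) (by
    intro g hg
    have hg' : g ∈ colGroup i := mem_colGroup.2 fun a => congrFun hg a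
    rw [signTwist_apply, wordRep_polytabloid_of_mem hg', smul_smul, sign_mul_self, one_smul])
  have hsingle : ∀ r c, IsStairTab m r c → ∀ w,
      B (polytabloid r c) (ψ (Finsupp.single w 1)) ∈ Γ := by
    intro r c hrc w
    by_cases hw : ∃ g : Perm Ω, w = i ∘ ⇑g
    · obtain ⟨g, rfl⟩ := hw
      have h1 : Finsupp.single (i ∘ ⇑g) (1 : ℂ) = wordRep Ω g⁻¹ (Finsupp.single i 1) := by simp
      rw [h1, hψ, hψ0, signTwist_apply, map_smul, wordRep_polytabloid]
      exact sign_smul_mem _ (hmem _ _ _ _ hrc (hji.comp _))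
    · rw [hψ1 w hw, map_zero]
      exact Γ.zero_mem
  refine ⟨B.compl₂ ψ, Γ, ?_, hfg, hne, hst', ?_, ?_⟩
  · intro g x y
    simp only [LinearMap.compl₂_apply]
    rw [hψ, signTwist_apply, map_smul, hB, signTwist_apply, smul_smul, sign_mul_self, one_smul]
  · intro r c r' c' h1 _
    rw [LinearMap.compl₂_apply, polytabloid_eq_sum r' c', map_sum, map_sum]
    refine Submodule.sum_mem _ fun d _ => ?_
    rw [map_smul, map_smul]
    exact sign_smul_mem _ (hsingle r c h1 _)
  · intro x hx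
    obtain ⟨y, hy, z, hz, rfl⟩ := hgen x hx
    rw [orbitSpan_signTwist] at hy
    have hψe : ψ (polytabloid i k) = ∑ c ∈ colGroup k, wordRep Ω c (polytabloid j i) := by
      rw [polytabloid_eq_kappa, map_kappa ψ hψ, hψ0]
      refine Finset.sum_congr rfl fun c _ => ?_
      rw [signTwist_apply, smul_smul, sign_mul_self, one_smul]
    set z₀ := ∑ c ∈ colGroup k, if Perm.sign c = 1 then 0 else
      B (polytabloid i j) (wordRep Ω c (polytabloid j i)) with hz₀
    have hz₀m : z₀ ∈ Γ := by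
      refine Submodule.sum_mem _ fun c _ => ?_
      split_ifs
      · exact Γ.zero_mem
      · rw [wordRep_polytabloid]
        exact hmem _ _ _ _ hij (hji.comp _)
    have hkey : B (polytabloid i j) (ψ (polytabloid i k)) =
        B (polytabloid i j) (polytabloid j k) + 2 • z₀ := by
      rw [hψe, ← hs.kappa_polytabloid, kappa_apply, map_sum, map_sum, hz₀, Finset.smul_sum,
        ← Finset.sum_add_distrib]
      refine Finset.sum_congr rfl fun c _ => ?_
      rcases Int.units_eq_one_or (Perm.sign c) with h1 | h1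
      · simp [h1]
      · simp [h1, two_smul]
    have hor := hik.isColTab.polytabloid_eq_or hs.tab.isColTab (fun _ _ => Iff.rfl)
    have hfin : B (polytabloid i j) (polytabloid i k) =
          B.compl₂ ψ (polytabloid i j) (polytabloid i k) + 2 • (-z₀) ∨
        B (polytabloid i j) (polytabloid i k) =
          -B.compl₂ ψ (polytabloid i j) (polytabloid i k) + 2 • z₀ := by
      rw [LinearMap.compl₂_apply, hkey]
      rcases hor with h1 | h1
      · left
        rw [h1]
        simp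
      · right
        rw [h1]
        simp
    rcases hfin with h1 | h1
    · obtain ⟨y', hy', z', hz', rfl⟩ := orbitSpan_mod_two ρ hst' (Γ.neg_mem hz₀m) (Or.inl h1) hy
      exact ⟨y', hy', z' + z, Γ.add_mem hz' hz, by rw [smul_add, add_assoc]⟩
    · obtain ⟨y', hy', z', hz', rfl⟩ := orbitSpan_mod_two ρ hst' hz₀m (Or.inr h1) hy
      exact ⟨y', hy', z' + z, Γ.add_mem hz' hz, by rw [smul_add, add_assoc]⟩

end Vale.Agent.P197
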