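import Vale.Agent.P197.Cut
import Vale.Agent.P197.Path
import Vale.Agent.P197.Twist

namespace Vale.Agent.P197

open Equiv TensorProduct

universe u

theorem exists_four {X Y V : Type*} [AddCommGroup X] [Module ℂ X] [AddCommGroup Y] [Module ℂ Y]
    [AddCommGroup V] [Module ℂ V] (E : X →ₗ[ℂ] X →ₗ[ℂ] Y →ₗ[ℂ] Y →ₗ[ℂ] V) :
    ∃ Φ : Y ⊗[ℂ] X →ₗ[ℂ] Y ⊗[ℂ] X →ₗ[ℂ] V,
      ∀ ya xa yb xb, Φ (ya ⊗ₜ xa) (yb ⊗ₜ xb) = E xa xb ya yb := by
  refine ⟨TensorProduct.lift (LinearMap.mk₂ ℂ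
    (fun ya xa => TensorProduct.lift (((E xa).flip ya).flip)) ?_ ?_ ?_ ?_), ?_⟩
  · intro a b c
    refine TensorProduct.ext' fun y x => ?_
    simp
  · intro a b c
    refine TensorProduct.ext' fun y x => ?_
    simp
  · intro a b c
    refine TensorProduct.ext' fun y x => ?_
    simp
  · intro a b c
    refine TensorProduct.ext' fun y x => ?_
    simp
  · intro ya xa yb xb
    simp

variable {Ω : Type} [Fintype Ω] [DecidableEq Ω] {V : Type u} [AddCommGroup V] [Module ℂ V]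

/-- Postcomposition representation on bilinear maps. -/
noncomputable def postRep {G X : Type} [Group G] [AddCommGroup X] [Module ℂ X]
    (ρ : Representation ℂ G V) : Representation ℂ G (X →ₗ[ℂ] X →ₗ[ℂ] V) where
  toFun g :=
    { toFun := fun β => β.compr₂ (ρ g)
      map_add' := fun _ _ => LinearMap.ext fun _ => LinearMap.ext fun _ => by simp
      map_smul' := fun _ _ => LinearMap.ext fun _ => LinearMap.ext fun _ => by simp }
  map_one' := LinearMap.ext fun _ => LinearMap.ext fun _ => LinearMap.ext fun _ => by simp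
  map_mul' _ _ := LinearMap.ext fun _ => LinearMap.ext fun _ => LinearMap.ext fun _ => by simp

theorem postRep_apply {G X : Type} [Group G] [AddCommGroup X] [Module ℂ X]
    (ρ : Representation ℂ G V) (g : G) (β : X →ₗ[ℂ] X →ₗ[ℂ] V) (x y : X) :
    postRep ρ g β x y = ρ g (β x y) := rfl

omit [Fintype Ω] [DecidableEq Ω] in
theorem rep_mem_orbitSpan_of_mem (ρ : Representation ℂ (Perm Ω) V) {v y : V} (g : Perm Ω)
    (hy : y ∈ orbitSpan ρ v) : ρ g y ∈ orbitSpan ρ v := by
  refine Submodule.span_induction (fun x hx => ?_) ?_ (fun x y _ _ hx hy => ?_)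
    (fun a x _ hx => ?_) hy
  · obtain ⟨h, rfl⟩ := hx
    rw [← Module.End.mul_apply, ← map_mul]
    exact rep_mem_orbitSpan ρ v _
  · simp
  · rw [map_add]
    exact Submodule.add_mem _ hx hy
  · rw [map_zsmul]
    exact Submodule.smul_mem _ _ hx

theorem cut_stair {m : ℕ} (p : Ω → Prop) [DecidablePred p] {r c : Ω → ℕ}
    (h : IsStairTab (m + 2) r c) :
    cut p (polytabloid r c) = 0 ∨ ∃ (d : Perm Ω) (r₁ c₁ : {a // p a} → ℕ)
      (r₂ c₂ : {a // ¬ p a} → ℕ), TwoRow r₁ c₁ ∧ IsStairTab m r₂ c₂ ∧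
      cut p (polytabloid r c) =
        ((Perm.sign d : ℤ) : ℂ) • (polytabloid r₁ c₁ ⊗ₜ polytabloid r₂ c₂) := by
  by_cases h0 : cut p (polytabloid r c) = 0
  · exact Or.inl h0
  right
  obtain ⟨d, hd, hp⟩ := exists_of_cut_ne_zero p h0
  have hc : c ∘ ⇑d = c := funext (mem_colGroup.1 hd)
  have h1 : IsStairTab (m + 2) (r ∘ ⇑d) c := by
    have := h.comp d
    rwa [hc] at this
  refine ⟨d, _, _, _, _, h1.top hp, h1.bot hp, ?_⟩
  rw [← cut_polytabloid p (r := r ∘ ⇑d) hp, polytabloid_comp_of_mem hd, map_smul, smul_smul, sign_mul_self,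
    one_smul]

theorem Hyp.step {m : ℕ} {i j k : Ω → ℕ} (hs : Stair (m + 2) i j k)
    (ρ : Representation ℂ (Perm Ω) V)
    (IH : ∀ (V' : Type u) [AddCommGroup V'] [Module ℂ V']
      (ρ' : Representation ℂ (Perm {a // ¬ i a < 2}) V') (v : V'), v ≠ 0 →
      Hyp ρ' m (fun a => i a - 2) (fun a => j a) (fun a => k a))
    (β₀ : Wd {a // i a < 2} →ₗ[ℂ] Wd {a // i a < 2} →ₗ[ℂ] V)
    (hβ₀ : Equivar (ρ.comp Perm.ofSubtype) β₀) {r c r' c' : {a // i a < 2} → ℕ}
    (h : TwoRow r c) (h' : TwoRow r' c') (hne : β₀ (polytabloid r c) (polytabloid r' c') ≠ 0) :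
    Hyp ρ (m + 2) i j k := by
  let p : Ω → Prop := fun a => i a < 2
  let _ : DecidablePred p := fun a => inferInstanceAs (Decidable (i a < 2))
  have hij : IsStairTab (m + 2) i j := hs.rot.rot.tab
  have hik : IsStairTab (m + 2) i k := hs.swap.rot.rot.tab
  let S : Submodule ℂ (Wd {a // p a}) :=
    Submodule.span ℂ {x | ∃ r c, TwoRow r c ∧ x = polytabloid r c}
  have hSmem : ∀ r c, TwoRow r c → polytabloid r c ∈ S := fun r c hrc =>
    Submodule.subset_span ⟨r, c, hrc, rfl⟩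
  obtain ⟨pr, hpr1, hpr2, hpr3⟩ := exists_proj (wordRep {a // p a}) S (by
    intro g x hx
    refine Submodule.span_induction (fun x hx => ?_) ?_ (fun x y _ _ hx hy => ?_)
      (fun a x _ hx => ?_) hx
    · obtain ⟨r, c, hrc, rfl⟩ := hx
      rw [wordRep_polytabloid]
      exact hSmem _ _ (hrc.comp _)
    · simp
    · rw [map_add]
      exact S.add_mem hx hy
    · rw [map_smul]
      exact S.smul_mem _ hx)
  let ρA : Representation ℂ (Perm {a // p a}) V := ρ.comp Perm.ofSubtype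
  let ρB : Representation ℂ (Perm {a // ¬ p a}) V := ρ.comp Perm.ofSubtype
  have hcomm : ∀ s t v, ρB t (ρA s v) = ρA s (ρB t v) := by
    intro s t v
    change ρ (Perm.ofSubtype t) (ρ (Perm.ofSubtype s) v) =
      ρ (Perm.ofSubtype s) (ρ (Perm.ofSubtype t) v)
    rw [← Module.End.mul_apply, ← map_mul, ofSubtype_comm, map_mul, Module.End.mul_apply]
  let V' : Submodule ℂ (Wd {a // p a} →ₗ[ℂ] Wd {a // p a} →ₗ[ℂ] V) :=
    { carrier := {β | Equivar ρA β ∧ ∀ x y, β x y = β (pr x) (pr y)}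
      add_mem' := by
        rintro a b ⟨ha1, ha2⟩ ⟨hb1, hb2⟩
        refine ⟨fun g x y => ?_, fun x y => ?_⟩
        · simp only [LinearMap.add_apply, map_add]
          rw [ha1, hb1]
        · simp only [LinearMap.add_apply]
          rw [← ha2, ← hb2]
      zero_mem' := ⟨fun g x y => by simp, fun x y => by simp⟩
      smul_mem' := by
        rintro z a ⟨ha1, ha2⟩
        refine ⟨fun g x y => ?_, fun x y => ?_⟩
        · simp only [LinearMap.smul_apply, map_smul]
          rw [ha1]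
        · simp only [LinearMap.smul_apply]
          rw [← ha2] }
  let ρ' : Representation ℂ (Perm {a // ¬ p a}) V' :=
    Representation.subrepresentation (postRep ρB) V' (by
      rintro t β ⟨h1, h2⟩
      refine ⟨fun g x y => ?_, fun x y => ?_⟩
      · rw [postRep_apply, postRep_apply, h1, hcomm]
      · rw [postRep_apply, postRep_apply, ← h2])
  have hρ' : ∀ t (β : V') x y, (ρ' t β).1 x y = ρB t (β.1 x y) := fun _ _ _ _ => rfl
  let β₁ : V' := ⟨β₀.compl₁₂ pr pr, fun g x y => by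
      simp only [LinearMap.compl₁₂_apply]
      rw [hpr1, hpr1, hβ₀], fun x y => by
      simp only [LinearMap.compl₁₂_apply]
      rw [hpr3 _ (hpr2 x), hpr3 _ (hpr2 y)]⟩
  have hβ₁ : β₁ ≠ 0 := by
    intro h0
    apply hne
    have : β₁.1 (polytabloid r c) (polytabloid r' c') = 0 := by rw [h0]; rfl
    rwa [LinearMap.compl₁₂_apply, hpr3 _ (hSmem _ _ h), hpr3 _ (hSmem _ _ h')] at this
  obtain ⟨B', Γ', hB', hfg', hne', hst', hmem', hgen'⟩ := IH V' ρ' β₁ hβ₁
  obtain ⟨Φ, hΦ⟩ := exists_four (B'.compr₂ V'.subtype)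
  have hΦ' : ∀ ya xa yb xb, Φ (ya ⊗ₜ xa) (yb ⊗ₜ xb) = (B' xa xb).1 ya yb := hΦ
  let H : Subgroup (Perm Ω) :=
    { carrier := {g | ∀ a, p (g a) ↔ p a}
      mul_mem' := fun {a b} ha hb x => by rw [Perm.mul_apply, ha, hb]
      one_mem' := fun _ => Iff.rfl
      inv_mem' := fun {g} hg x => by
        rw [← hg]
        simp }
  obtain ⟨B, hB, hB1, hB2⟩ := exists_transfer ρ H (Φ.compl₁₂ (cut p) (cut p)) (by
    intro g hg x y
    rw [eq_subtypeCongr p g hg]
    generalize g.subtypePerm hg = s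
    generalize (g.subtypePerm (p := fun a => ¬ p a) fun a => not_congr (hg a)) = t
    rw [LinearMap.compl₁₂_apply, LinearMap.compl₁₂_apply, cut_subtypeCongr, cut_subtypeCongr]
    generalize cut p x = X
    generalize cut p y = Y
    induction X using TensorProduct.induction_on with
    | zero => simp
    | add a b ha hb => simp only [map_add, LinearMap.add_apply, ha, hb]
    | tmul xa xb =>
      induction Y using TensorProduct.induction_on with
      | zero => simp
      | add a b ha hb => simp only [map_add, ha, hb]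
      | tmul ya yb =>
        rw [TensorProduct.map_tmul, TensorProduct.map_tmul, hΦ', hΦ', hB', hρ', (B' xb yb).2.1,
          hcomm, subtypeCongr_eq_mul, map_mul]
        rfl)
  have htop : ∀ a, i a < 2 ↔ p a := fun _ => Iff.rfl
  set e₁ := polytabloid (fun a : {a // p a} => i a) (fun a : {a // p a} => j a) with he₁
  set e₂ := polytabloid (fun a : {a // p a} => i a) (fun a : {a // p a} => k a) with he₂
  obtain ⟨x₀, hx₀⟩ := hs.exists_path
  have hpath : ∀ (f : V') r c r' c', TwoRow r c → TwoRow r' c' →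
      f.1 (polytabloid r c) (polytabloid r' c') ∈ orbitSpan ρA (f.1 e₁ e₂) :=
    fun f r c r' c' h1 h2 => path_generates ρA f.1 f.2.1 (m + 1) hs.card_top (hij.top htop)
      (hik.top htop) hx₀ h1 h2
  let L : Perm Ω → V' →ₗ[ℤ] V := fun g =>
    { toFun := fun f => ρ g (f.1 e₁ e₂)
      map_add' := fun a b => by simp
      map_smul' := fun a b => by simp }
  have hL : ∀ g f, L g f = ρ g (f.1 e₁ e₂) := fun _ _ => rfl
  let Γ : Submodule ℤ V := ⨆ g, Γ'.map (L g)
  have hΓ0 : ∀ g, ∀ f ∈ Γ', ρ g (f.1 e₁ e₂) ∈ Γ := fun g f hf =>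
    Submodule.mem_iSup_of_mem g (Submodule.mem_map_of_mem hf)
  have hΓst : ∀ g, ∀ x ∈ Γ, ρ g x ∈ Γ := by
    intro g x hx
    refine Submodule.iSup_induction (motive := fun x => ρ g x ∈ Γ) _ hx ?_ (by simp) ?_
    · rintro g' _ ⟨f, hf, rfl⟩
      rw [hL, ← Module.End.mul_apply, ← map_mul]
      exact hΓ0 _ f hf
    · intro x y hx hy
      rw [map_add]
      exact Γ.add_mem hx hy
  have hΓ1 : ∀ f ∈ Γ', ∀ r c r' c', TwoRow r c → TwoRow r' c' →
      f.1 (polytabloid r c) (polytabloid r' c') ∈ Γ := by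
    intro f hf r c r' c' h1 h2
    refine (Submodule.span_le.2 ?_ : orbitSpan ρA (f.1 e₁ e₂) ≤ Γ) (hpath f r c r' c' h1 h2)
    rintro _ ⟨s, rfl⟩
    exact hΓ0 _ f hf
  have hBv : B (polytabloid i j) (polytabloid i k) = (B'
      (polytabloid (fun a : {a // ¬ p a} => i a - 2) (fun a : {a // ¬ p a} => j a))
      (polytabloid (fun a : {a // ¬ p a} => i a - 2) (fun a : {a // ¬ p a} => k a))).1 e₁ e₂ := by
    rw [hB1, LinearMap.compl₁₂_apply, cut_polytabloid p htop, cut_polytabloid p htop, hΦ']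
    intro g hg
    rw [LinearMap.compl₁₂_apply, wordRep_polytabloid, wordRep_polytabloid, inv_inv]
    by_contra hh
    have h1 : cut p (polytabloid (i ∘ ⇑g) (j ∘ ⇑g)) ≠ 0 := by
      intro h0
      rw [h0] at hh
      simp at hh
    have h2 : cut p (polytabloid (i ∘ ⇑g) (k ∘ ⇑g)) ≠ 0 := by
      intro h0
      rw [h0] at hh
      simp at hh
    obtain ⟨d, hd, hd1⟩ := exists_of_cut_ne_zero p h1
    obtain ⟨d', hd', hd1'⟩ := exists_of_cut_ne_zero p h2
    have hsg : Stair (m + 2) (i ∘ ⇑g) (j ∘ ⇑g) (k ∘ ⇑g) :=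
      ⟨fun a => hs.sum _, fun a b h1 h2 => g.injective (hs.inj _ _ h1 h2), fun x y hxy => by
        obtain ⟨a, h1, h2⟩ := hs.surj x y hxy
        exact ⟨g⁻¹ a, by simpa using h1, by simpa using h2⟩⟩
    apply hg
    intro a
    rw [← hd1 a]
    exact (hsg.unique_top hd hd' (fun b => (hd1 b).trans (hd1' b).symm) a).symm
  refine ⟨B, Γ, hB, ?_, ?_, hΓst, ?_, ?_⟩
  · exact Submodule.fg_iSup _ fun g => hfg'.map _
  · obtain ⟨f, hf, hf0⟩ := (Submodule.ne_bot_iff _).1 hne'
    rw [Submodule.ne_bot_iff]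
    refine ⟨f.1 e₁ e₂, by simpa using hΓ0 1 f hf, fun h0 => hf0 ?_⟩
    have h1 : ∀ r c r' c', TwoRow r c → TwoRow r' c' →
        f.1 (polytabloid r c) (polytabloid r' c') = 0 := by
      intro r c r' c' h1 h2
      have := hpath f r c r' c' h1 h2
      rw [h0] at this
      simpa [orbitSpan] using this
    have h2 : ∀ x ∈ S, ∀ y ∈ S, f.1 x y = 0 := by
      intro x hx y hy
      refine Submodule.span_induction₂ (p := fun x y _ _ => f.1 x y = 0) ?_ ?_ ?_ ?_ ?_ ?_ ?_ hx hy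
      · rintro _ _ ⟨r, c, h1', rfl⟩ ⟨r', c', h2', rfl⟩
        exact h1 _ _ _ _ h1' h2'
      · intro y _
        simp
      · intro x _
        simp
      · intro x y z _ _ _ h1 h2
        simp [h1, h2]
      · intro x y z _ _ _ h1 h2
        simp [h1, h2]
      · intro a x y _ _ h1
        simp [h1]
      · intro a x y _ _ h1
        simp [h1]
    refine Subtype.ext (LinearMap.ext fun x => LinearMap.ext fun y => ?_)
    rw [f.2.2, h2 _ (hpr2 x) _ (hpr2 y)]
    rfl
  · intro r c r' c' h1 h2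
    refine hB2 Γ _ _ fun g => hΓst g _ ?_
    rw [LinearMap.compl₁₂_apply, wordRep_polytabloid, wordRep_polytabloid]
    rcases cut_stair p (h1.comp g⁻¹⁻¹) with h3 | ⟨d, r₁, c₁, r₂, c₂, h3, h4, h5⟩
    · rw [h3]
      simp
    rcases cut_stair p (h2.comp g⁻¹⁻¹) with h6 | ⟨d', r₁', c₁', r₂', c₂', h6, h7, h8⟩
    · rw [h6]
      simp
    rw [h5, h8, map_smul, map_smul, LinearMap.smul_apply, hΦ']
    exact sign_smul_mem _ (sign_smul_mem _ (hΓ1 _ (hmem' _ _ _ _ h4 h7) _ _ _ _ h3 h6))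
  · intro x hx
    rw [hBv]
    refine Submodule.iSup_induction (motive := fun x => ∃ y ∈ orbitSpan ρ _, ∃ z ∈ Γ,
      x = y + 2 • z) _ hx ?_ ?_ ?_
    · rintro g _ ⟨f, hf, rfl⟩
      obtain ⟨y, hy, z, hz, rfl⟩ := hgen' f hf
      refine ⟨L g y, ?_, L g z, hΓ0 g z hz, by rw [map_add, map_nsmul]⟩
      rw [hL]
      apply rep_mem_orbitSpan_of_mem
      refine Submodule.span_induction (fun x hx => ?_) ?_ (fun x y _ _ hx hy => ?_)
        (fun a x _ hx => ?_) hy
      · obtain ⟨t, rfl⟩ := hx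
        exact rep_mem_orbitSpan ρ _ _
      · simp
      · exact Submodule.add_mem _ hx hy
      · exact Submodule.smul_mem _ a hx
    · exact ⟨0, Submodule.zero_mem _, 0, Submodule.zero_mem _, by simp⟩
    · rintro _ _ ⟨x1, h1, x2, h2, rfl⟩ ⟨y1, h3, y2, h4, rfl⟩
      exact ⟨x1 + y1, Submodule.add_mem _ h1 h3, x2 + y2, Submodule.add_mem _ h2 h4, by
        rw [smul_add]; abel⟩

end Vale.Agent.P197
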